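import Crest.Agent.R55.Improve

/-! The counting theorem: a sparse set has a spread orbit. -/

set_option autoImplicit false

namespace Crest.Agent.R55

open Finset Real
open scoped Pointwise

variable {X : Type} [Fintype X] [DecidableEq X]
variable {Γ : Type} [Group Γ] [Fintype Γ] [MulAction Γ X]

/-- The proportion of group elements fixing the set `A`. -/
noncomputable def stabP (Γ : Type) [Group Γ] [Fintype Γ] [MulAction Γ X] (A : Finset X) : ℝ :=
  (∑ σ : Γ, if σ • A = A then 1 else 0) / Fintype.card Γ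

omit [Fintype X] in
lemma stabP_pos (A : Finset X) : 0 < stabP Γ A :=
  hat_pos (Γ := Γ) (m := fun B : Finset X => if B = A then (1 : ℝ) else 0)
    (fun B => by split_ifs <;> norm_num) (t := A) (by simp)

omit [Fintype X] in
lemma root_bound {T : Type} [Fintype T] [MulAction Γ T] (ρ : T → Finset X)
    (hρ : ∀ (σ : Γ) t, ρ (σ • t) = σ • ρ t) (A : Finset X) {m : T → ℝ} (hm : ∀ t, 0 ≤ m t)
    (hs : ∀ t, m t ≠ 0 → ρ t = A) : (∑ t, m t) * -log (stabP Γ A) ≤ info Γ m := by
  have hπ := stabP_pos (Γ := Γ) A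
  have h1 : push ρ (hat Γ m) A = (∑ t, m t) * stabP Γ A := by
    rw [← hat_push ρ hρ, hat, stabP, mul_div_assoc', mul_sum]
    congr 1
    refine sum_congr rfl fun σ _ => ?_
    unfold push
    split_ifs with h
    · rw [mul_one, h]
      refine sum_congr rfl fun t _ => ?_
      split_ifs with h'
      · rfl
      · by_contra hc; exact h' (hs t (Ne.symm hc))
    · rw [mul_zero]
      refine sum_eq_zero fun t _ => ?_
      split_ifs with h'
      · by_contra hc; exact h (h' ▸ hs t hc)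
      · rfl
  have hg := gibbs (p := m) (q := fun t => (if ρ t = A then hat Γ m t else 0) / stabP Γ A) hm
    (fun t => div_nonneg (by split_ifs; exacts [hat_nonneg hm t, le_rfl]) hπ.le)
    (fun t ht => by rw [if_pos (hs t ht.ne')]; exact div_pos (hat_pos hm ht) hπ)
  rw [← sum_div] at hg
  change _ ≤ push ρ (hat Γ m) A / _ - _ at hg
  rw [h1, mul_div_cancel_right₀ _ hπ.ne', sub_self] at hg
  have h2 : ∑ t, m t * (log ((if ρ t = A then hat Γ m t else 0) / stabP Γ A) - log (m t)) =
      (∑ t, m t) * -log (stabP Γ A) - info Γ m := by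
    rw [info, sum_mul, ← sum_sub_distrib]
    refine sum_congr rfl fun t _ => ?_
    rcases (hm t).eq_or_lt with h | h
    · simp [← h]
    · rw [if_pos (hs t h.ne'), Real.log_div (hat_pos hm h).ne' hπ.ne']; ring
  linarith

variable {H : Finset X} {L : ℝ}

lemma EE_mono {κ κ' : ℝ} (h : EE Γ H L κ) (hκ : κ ≤ κ') : EE Γ H L κ' := by
  intro T _ _ ρ U hρ hU A hA m hm hs c hc
  have h1 := h T ρ U hρ hU A hA m hm hs c hc
  have h2 : 0 ≤ ∑ t, m t * (U t).card := sum_nonneg fun t _ => mul_nonneg (hm t) (by positivity)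
  nlinarith

lemma EE_base (hp : ∀ A ⊆ H, A.card * L - log 2 ≤ -log (stabP Γ A)) : EE Γ H L (L + 1) := by
  intro T _ _ ρ U hρ hU A hA m hm hs c hc
  have h1 := root_bound ρ hρ A hm (fun t ht => (hs t ht).1)
  have h2 : (∑ t, m t) * (A.card * L - log 2) ≤ (∑ t, m t) * -log (stabP Γ A) :=
    mul_le_mul_of_nonneg_left (hp A hA) (sum_nonneg fun t _ => hm t)
  have h3 : ∑ x, (3 / 2 * c x * (∑ t, if x ∈ U t then m t else 0) - c x ^ 3 * (∑ t, m t) / 2)
      ≤ ∑ t, m t * (U t).card := by
    rw [sum_mul_card]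
    refine sum_le_sum fun x _ => ?_
    have a1 : 0 ≤ ∑ t, if x ∈ U t then m t else 0 :=
      sum_nonneg fun t _ => by split_ifs; exacts [hm t, le_rfl]
    have a2 : (∑ t, if x ∈ U t then m t else 0) ≤ ∑ t, m t :=
      sum_le_sum fun t _ => by split_ifs; exacts [le_rfl, hm t]
    have a3 := hc x
    generalize (∑ t, if x ∈ U t then m t else 0) = y at *
    generalize (∑ t, m t) = M at *
    generalize c x = r at *
    have a4 : 0 ≤ y * ((r - 1) ^ 2 * (r + 2)) := by positivity
    have a5 : r ^ 3 * y ≤ r ^ 3 * M := by gcongr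
    nlinarith
  linarith

lemma EE_step (hp : ∀ A ⊆ H, A.card * L - log 2 ≤ -log (stabP Γ A)) {κ : ℝ} (hκ : 15 ≤ κ)
    (hX : 0 < Fintype.card X) (hE : EE Γ H L κ) :
    EE Γ H L (κ - (κ - 15) * (2 / (5 * Fintype.card X))) := by
  intro T _ _ ρ U hρ hU A hA m hm hs c hc
  have hX' : (0 : ℝ) < Fintype.card X := by exact_mod_cast hX
  rw [info_split m (fun t => U t = ∅) (fun σ t => by rw [hU, smul_finset_eq_empty])]
  set m0 : T → ℝ := fun t => m t * if U t = ∅ then 1 else 0 with hm0
  set m1 : T → ℝ := fun t => m t * if U t = ∅ then 0 else 1 with hm1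
  have h00 : ∀ t, 0 ≤ m0 t := fun t => mul_nonneg (hm t) (by split_ifs <;> norm_num)
  have h10 : ∀ t, 0 ≤ m1 t := fun t => mul_nonneg (hm t) (by split_ifs <;> norm_num)
  have hsum : ∑ t, m t = ∑ t, m0 t + ∑ t, m1 t := by
    rw [← sum_add_distrib]
    refine sum_congr rfl fun t _ => ?_
    by_cases h : U t = ∅ <;> simp [hm0, hm1, h]
  have hu : ∀ x, (∑ t, if x ∈ U t then m t else 0) = ∑ t, if x ∈ U t then m1 t else 0 := by
    intro x
    refine sum_congr rfl fun t _ => ?_
    split_ifs with h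
    · simp [hm1, ne_empty_of_mem h]
    · rfl
  have ha : ∑ t, m t * (U t).card = ∑ t, m1 t * (U t).card := by
    rw [sum_mul_card, sum_mul_card]; simp_rw [hu]
  have b0 : (∑ t, m0 t) * (A.card * L - log 2) ≤ info Γ m0 :=
    (mul_le_mul_of_nonneg_left (hp A hA) (sum_nonneg fun t _ => h00 t)).trans
      (root_bound ρ hρ A h00 (fun t ht => (hs t (left_ne_zero_of_mul ht)).1))
  have b1 : (∑ t, m1 t) * (A.card * L - log 2)
      + (L - (κ - (κ - 15) * (2 / (5 * Fintype.card X)))) * ∑ t, m1 t * (U t).card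
      + ∑ x, (3 / 2 * c x * (∑ t, if x ∈ U t then m1 t else 0) - c x ^ 3 * (∑ t, m1 t) / 2)
      ≤ info Γ m1 := by
    rcases (sum_nonneg (s := univ) fun t _ => h10 t).eq_or_lt with h | h
    · have : ∀ t, m1 t = 0 := fun t =>
        (sum_eq_zero_iff_of_nonneg fun t _ => h10 t).1 h.symm t (mem_univ t)
      simp [info, this]
    set M := ∑ t, m1 t with hM
    set μ : T → ℝ := fun t => m1 t / M with hμ
    have hμ0 : ∀ t, 0 ≤ μ t := fun t => div_nonneg (h10 t) h.le
    have hμ1 : ∑ t, μ t = 1 := by rw [hμ, ← sum_div, div_self h.ne']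
    have hμm : m1 = fun t => μ t * M := by funext t; simp only [hμ]; field_simp
    have hμs : ∀ t, μ t ≠ 0 → m1 t ≠ 0 := fun t ht h' => ht (by simp [hμ, h'])
    have k := improve hE ρ U hρ hU hA hμ0 (fun t ht => hs t (left_ne_zero_of_mul (hμs t ht))) hμ1
    set u : X → ℝ := fun x => ∑ t, if x ∈ U t then μ t else 0 with hudef
    have hu0 : ∀ x, 0 ≤ u x := fun x => sum_nonneg fun t _ => by split_ifs; exacts [hμ0 t, le_rfl]
    have hu1 : ∀ x, u x ≤ 1 := fun x => hμ1 ▸ sum_le_sum fun t _ => by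
      split_ifs; exacts [le_rfl, hμ0 t]
    set a := ∑ t, μ t * (U t).card with hadef
    have ha1 : 1 ≤ a := by
      rw [← hμ1]
      refine sum_le_sum fun t _ => ?_
      by_cases ht : μ t = 0
      · simp [ht]
      · have : U t ≠ ∅ := fun h' => hμs t ht (by simp [hm1, h'])
        exact le_mul_of_one_le_right (hμ0 t) (by
          exact_mod_cast card_pos.2 (nonempty_iff_ne_empty.2 this))
    have ha2 : a ^ 2 ≤ Fintype.card X * ∑ x, u x ^ 2 := by
      rw [hadef, sum_mul_card]
      exact sq_sum_le_card_mul_sum_sq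
    have ha3 : a / Fintype.card X ≤ ∑ x, u x ^ 2 := by
      rw [div_le_iff₀ hX']; nlinarith
    have k2 : (κ - 15) * (a / Fintype.card X) ≤ (κ - 15) * ∑ x, u x ^ 2 :=
      mul_le_mul_of_nonneg_left ha3 (by linarith)
    have k3 : ∑ x, (3 / 2 * c x * u x - c x ^ 3 * 1 / 2) ≤ ∑ x, psi (u x) 1 :=
      sum_le_sum fun x _ => le_psi (hu0 x) (hu1 x) (hc x)
    have k4 : (A.card * L - log 2) + (L - (κ - (κ - 15) * (2 / (5 * Fintype.card X)))) * a
        + ∑ x, (3 / 2 * c x * u x - c x ^ 3 * 1 / 2) ≤ info Γ μ := by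
      have : (κ - 15) * (2 / (5 * Fintype.card X)) * a = 2 / 5 * ((κ - 15) * (a / Fintype.card X)) := by
        field_simp
      change (κ - 15) * ∑ x, u x ^ 2 ≤ 5 / 2 * (info Γ μ - ((A.card * L - log 2) + (L - κ) * a
        + ∑ x, psi (u x) 1)) at k
      linarith
    have k5 := mul_le_mul_of_nonneg_right k4 h.le
    rw [← info_smul M h hμ0, ← hμm] at k5
    refine le_trans (le_of_eq ?_) k5
    have e1 : ∑ t, m1 t * (U t).card = a * M := by
      rw [hadef, sum_mul, hμm]; exact sum_congr rfl fun t _ => by ring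
    have e2 : ∀ x, (∑ t, if x ∈ U t then m1 t else 0) = u x * M := by
      intro x
      rw [hudef, sum_mul, hμm]; exact sum_congr rfl fun t _ => by split_ifs <;> simp
    simp_rw [e1, e2]
    have e3 : ∑ x, (3 / 2 * c x * (u x * M) - c x ^ 3 * M / 2) =
        (∑ x, (3 / 2 * c x * u x - c x ^ 3 * 1 / 2)) * M := by
      rw [sum_mul]; exact sum_congr rfl fun x _ => by ring
    rw [e3]; ring
  have b2 : ∑ x, (3 / 2 * c x * (∑ t, if x ∈ U t then m t else 0) - c x ^ 3 * (∑ t, m t) / 2) ≤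
      ∑ x, (3 / 2 * c x * (∑ t, if x ∈ U t then m1 t else 0) - c x ^ 3 * (∑ t, m1 t) / 2) := by
    refine sum_le_sum fun x _ => ?_
    rw [hu, hsum]
    have : 0 ≤ c x ^ 3 * ∑ t, m0 t := mul_nonneg (pow_nonneg (hc x) 3) (sum_nonneg fun t _ => h00 t)
    linarith
  rw [ha]
  nth_rewrite 1 [hsum]
  linarith

lemma EE_sixteen (hp : ∀ A ⊆ H, A.card * L - log 2 ≤ -log (stabP Γ A))
    (hX : 0 < Fintype.card X) : EE Γ H L 16 := by
  have hX' : (1 : ℝ) ≤ Fintype.card X := by exact_mod_cast hX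
  set γ : ℝ := 2 / (5 * Fintype.card X) with hγ
  have hγ0 : 0 < γ := by positivity
  have hγ1 : γ ≤ 1 := by rw [hγ, div_le_one (by positivity)]; linarith
  have key : ∀ k : ℕ, EE Γ H L (15 + (1 - γ) ^ k * (|L| + 1)) := by
    intro k
    induction k with
    | zero => exact EE_mono (EE_base hp) (by have := le_abs_self L; simp; linarith)
    | succ k ih =>
      have h0 : 0 ≤ (1 - γ) ^ k * (|L| + 1) := mul_nonneg (pow_nonneg (by linarith) _) (by positivity)
      exact EE_mono (EE_step hp (by linarith) hX ih) (le_of_eq (by rw [← hγ]; ring))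
  obtain ⟨k, hk⟩ := exists_pow_lt_of_lt_one (show 0 < 1 / (|L| + 1) by positivity)
    (show 1 - γ < 1 by linarith)
  refine EE_mono (key k) ?_
  rw [lt_div_iff₀ (by positivity)] at hk
  linarith

/-- The counting theorem. -/
theorem count_le {p : ℝ} (hp0 : 0 < p) (hp : ∀ A ⊆ H, stabP Γ A ≤ 2 * p ^ A.card)
    (hX : 0 < Fintype.card X) (F : Finset X) :
    (∑ σ : Γ, if σ • F ⊆ H then (1 : ℝ) else 0) / Fintype.card Γ ≤ 2 * (exp 16 * p) ^ F.card := by
  have hE : EE Γ H (-log p) 16 := EE_sixteen (fun A hA => by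
    have := Real.log_le_log (stabP_pos A) (hp A hA)
    rw [Real.log_mul two_ne_zero (by positivity), Real.log_pow] at this
    linarith) hX
  set m : Γ → ℝ := fun σ => if σ • F ⊆ H then 1 else 0 with hm
  have hm0 : ∀ σ, 0 ≤ m σ := fun σ => by simp only [hm]; split_ifs <;> norm_num
  have h1 := hE Γ (fun _ => ∅) (fun σ => σ • F) (fun _ _ => rfl)
    (fun σ τ => by rw [smul_eq_mul, mul_smul]) ∅ (empty_subset _) m hm0
    (fun σ hσ => ⟨rfl, by
      simp only [hm] at hσ
      split_ifs at hσ with h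
      exacts [by simpa using h, absurd rfl hσ]⟩) (fun _ => 0) (fun _ => le_rfl)
  set N := ∑ σ, m σ with hN
  have hh : ∀ τ, hat Γ m τ = N / Fintype.card Γ := fun τ => by
    rw [hat, hN]
    congr 1
    exact Equiv.sum_comp (Equiv.mulRight τ) m
  have hi : info Γ m = N * -log (N / Fintype.card Γ) := by
    rw [info, hN, sum_mul]
    refine sum_congr rfl fun σ _ => ?_
    rw [hh]
    simp only [hm]
    split_ifs <;> simp [hN, hm]
  simp only [card_smul_finset, card_empty, Nat.cast_zero, zero_mul, mul_zero, zero_sub] at h1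
  rw [← sum_mul, ← hN, hi] at h1
  simp only [ne_eq, OfNat.ofNat_ne_zero, not_false_eq_true, zero_pow, zero_mul, zero_div, neg_zero,
    sum_const_zero, add_zero] at h1
  rcases (show 0 ≤ N from sum_nonneg fun σ _ => hm0 σ).eq_or_lt with h | h
  · rw [← h, zero_div]; positivity
  · have h2 : log (N / Fintype.card Γ) ≤ log (2 * (exp 16 * p) ^ F.card) := by
      rw [Real.log_mul two_ne_zero (by positivity), Real.log_pow,
        Real.log_mul (exp_pos _).ne' hp0.ne', Real.log_exp]
      refine le_of_mul_le_mul_left ?_ h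
      linarith
    exact (Real.log_le_log_iff (div_pos h card_pos') (by positivity)).1 h2

end Crest.Agent.R55
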