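import Crest.Agent.R55.Count
import Crest.Agent.Lib.Sunflower.Spread
import Crest.Prelude.Def_RandomGraph

/-! From the counting theorem and the spread lemma to the threshold statement. -/

set_option autoImplicit false

namespace Crest.Agent.R55

open Finset Real Crest.Agent.Lib.Sunflower
open scoped Pointwise

section Abstract

variable {X : Type} [Fintype X] [DecidableEq X]
variable {Γ : Type} [Group Γ] [Fintype Γ] [MulAction Γ X]

omit [Fintype X] in
lemma orbit_mul_stabP (A : Finset X) :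
    ((univ.image fun σ : Γ => σ • A).card : ℝ) * stabP Γ A = 1 := by
  have h1 : ∀ B ∈ univ.image fun σ : Γ => σ • A,
      (∑ σ : Γ, if σ • A = B then (1 : ℝ) else 0) = ∑ σ : Γ, if σ • A = A then (1 : ℝ) else 0 := by
    intro B hB
    obtain ⟨τ, -, rfl⟩ := mem_image.1 hB
    rw [← Equiv.sum_comp (Equiv.mulLeft τ)]
    simp [mul_smul]
  have h2 : ∑ B ∈ univ.image fun σ : Γ => σ • A, (∑ σ : Γ, if σ • A = B then (1 : ℝ) else 0)
      = Fintype.card Γ := by
    rw [sum_comm]
    rw [sum_congr rfl (g := fun _ => (1 : ℝ)) fun σ _ => by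
      rw [sum_ite_eq, if_pos (mem_image_of_mem _ (mem_univ σ))]]
    simp
  rw [sum_congr rfl h1, sum_const, nsmul_eq_mul] at h2
  rw [stabP, mul_div_assoc', h2, div_self card_pos'.ne']

/-- Abstract form of the threshold statement. -/
theorem abstract_threshold {H : Finset X} (hne : H.Nonempty) {p : ℝ} (hp0 : 0 ≤ p)
    (hp : ∀ A ⊆ H, 1 / 2 ≤ ((univ.image fun σ : Γ => σ • A).card : ℝ) * p ^ A.card)
    (G : Finset X → Prop) [DecidablePred G] (hG : ∀ a b, G a → a ⊆ b → G b)
    (hGH : ∀ σ : Γ, G (σ • H)) {h : ℕ} (hh : H.card ≤ h) {r : ℝ}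
    (hr : r = min 1 (2048 * exp 50 * p * (1 + logb 2 (h : ℝ)))) :
    ∑ y, wt r y * (if G y then 0 else 1) ≤ 1 / 2 := by
  have hcard : 0 < H.card := card_pos.2 hne
  have hp' : ∀ A ⊆ H, stabP Γ A ≤ 2 * p ^ A.card := fun A hA => by
    have h1 := hp A hA
    have h2 := orbit_mul_stabP (Γ := Γ) A
    have h3 := stabP_pos (Γ := Γ) A
    have h4 := mul_le_mul_of_nonneg_right h1 h3.le
    rw [mul_right_comm, h2] at h4
    linarith
  have hp1 : 0 < p := by
    refine hp0.lt_of_ne' fun h0 => ?_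
    have := hp H le_rfl
    rw [h0, zero_pow hcard.ne', mul_zero] at this
    linarith
  have hX : 0 < Fintype.card X := by
    obtain ⟨x, -⟩ := hne
    exact Fintype.card_pos_iff.2 ⟨x⟩
  rcases le_total 1 (2048 * exp 50 * p * (1 + logb 2 (h : ℝ))) with hc | hc
  · rw [hr, min_eq_left hc]
    refine le_trans (le_of_eq (sum_eq_zero fun y _ => ?_)) (by norm_num)
    split_ifs with hy
    · simp
    · have : y ≠ univ := fun h' => hy (h' ▸ hG _ _ (hGH 1) (subset_univ _))
      obtain ⟨x, hx⟩ : ∃ x, x ∉ y := by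
        by_contra hcon; push Not at hcon; exact this (eq_univ_of_forall hcon)
      rw [mul_one]
      exact prod_eq_zero (mem_univ x) (by simp [hx])
  rw [min_eq_right hc] at hr
  set q := exp 16 * p with hq
  have hq0 : 0 < q := by positivity
  set ν : Finset X → ℝ := fun a => (∑ σ : Γ, if σ • H = a then (1 : ℝ) else 0) / Fintype.card Γ
    with hν
  have sν : ∀ f : Finset X → ℝ, ∑ a, ν a * f a = (∑ σ : Γ, f (σ • H)) / Fintype.card Γ := by
    intro f
    simp only [hν, div_mul_eq_mul_div, sum_mul]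
    rw [← sum_div, sum_comm]
    simp
  have hspread : Spread (1 / (2 * q)) ν := by
    refine ⟨fun a => div_nonneg (sum_nonneg fun _ _ => by split_ifs <;> norm_num) card_pos'.le,
      ?_, fun T => ?_⟩
    · have := sν (fun _ => 1)
      simp only [mul_one, sum_const, card_univ, nsmul_eq_mul] at this
      rw [this, div_self card_pos'.ne']
    · have e1 : (∑ a, if T ⊆ a then ν a else 0) =
          (∑ σ : Γ, if σ • T ⊆ H then (1 : ℝ) else 0) / Fintype.card Γ := by
        have := sν (fun a => if T ⊆ a then 1 else 0)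
        simp only [mul_ite, mul_one, mul_zero] at this
        rw [this, ← Equiv.sum_comp (Equiv.inv Γ)]
        congr 1
        refine sum_congr rfl fun σ _ => ?_
        simp only [Equiv.inv_apply]
        have : T ⊆ σ⁻¹ • H ↔ σ • T ⊆ H := by
          rw [← smul_finset_subset_smul_finset_iff (a := σ), smul_inv_smul]
        simp only [this]
      rw [e1]
      rcases Nat.eq_zero_or_pos T.card with h0 | h0
      · rw [h0, pow_zero, mul_one, div_le_one card_pos']
        calc _ ≤ ∑ _σ : Γ, (1 : ℝ) := sum_le_sum fun _ _ => by split_ifs <;> norm_num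
          _ = _ := by simp
      · have h1 := count_le hp1 hp' hX T
        rw [← hq] at h1
        calc _ ≤ 2 * q ^ T.card * (1 / (2 * q)) ^ T.card := by gcongr
          _ = 2 * (1 / 2) ^ T.card := by
              rw [mul_assoc, ← mul_pow]; congr 2; field_simp
          _ ≤ 2 * (1 / 2) ^ 1 := by
              gcongr ?_ * ?_
              exact pow_le_pow_of_le_one (by norm_num) (by norm_num) h0
          _ = 1 := by norm_num
  set L0 := Nat.clog 2 h + 1 with hL0
  have hh1 : 1 ≤ h := hcard.trans_le hh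
  have hh1' : (1 : ℝ) ≤ h := by exact_mod_cast hh1
  have hlog : 0 ≤ logb 2 (h : ℝ) := logb_nonneg (by norm_num) hh1'
  have hL1 : (L0 : ℝ) ≤ 2 * (1 + logb 2 (h : ℝ)) := by
    have : (Nat.clog 2 h : ℝ) ≤ logb 2 (h : ℝ) + 1 := by
      rw [← Real.natCeil_logb_natCast 2 h]
      exact (Nat.ceil_lt_add_one hlog).le
    rw [hL0]; push_cast; linarith
  have hL2 : (0 : ℝ) < L0 := by rw [hL0]; positivity
  have hr1 : 8 * q * L0 ≤ r := by
    have : exp 16 ≤ exp 50 := exp_le_exp.2 (by norm_num)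
    calc 8 * q * L0 ≤ 8 * (exp 50 * p) * (2 * (1 + logb 2 (h : ℝ))) := by rw [hq]; gcongr
      _ = 16 * (exp 50 * p * (1 + logb 2 (h : ℝ))) := by ring
      _ ≤ 2048 * (exp 50 * p * (1 + logb 2 (h : ℝ))) := by gcongr; norm_num
      _ = r := by rw [hr]; ring
  have hr0 : 0 < r := lt_of_lt_of_le (by positivity) hr1
  have hLr : (L0 : ℝ) * (r / L0) = r := by field_simp
  have := spread_lemma (R := 1 / (2 * q)) (p₀ := r / L0) (by positivity) (by
    rw [mul_one_div, le_div_iff₀ (by positivity), le_div_iff₀ hL2]; linarith) L0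
    (by rw [hLr, hr]; exact hc) ν G hspread hG (fun a ha => by
      obtain ⟨σ, -, hσ⟩ := exists_ne_zero_of_sum_ne_zero (div_ne_zero_iff.1 ha).1
      split_ifs at hσ with h'
      exacts [h' ▸ hGH σ, absurd rfl hσ])
  rw [hLr, sν (fun a => (a.card : ℝ))] at this
  simp only [card_smul_finset, sum_const, card_univ, nsmul_eq_mul] at this
  rw [mul_div_cancel_left₀ _ card_pos'.ne'] at this
  refine this.trans ?_
  have h2 : (H.card : ℝ) ≤ 2 ^ Nat.clog 2 h := by
    exact_mod_cast hh.trans (Nat.le_pow_clog (by norm_num) h)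
  calc (1 / 2 : ℝ) ^ L0 * H.card ≤ (1 / 2) ^ L0 * 2 ^ Nat.clog 2 h := by gcongr
    _ = 1 / 2 := by rw [hL0, pow_succ, mul_right_comm, ← mul_pow]; norm_num

/-- Outcomes of coins as subsets. -/
def boolEquiv (X : Type) [Fintype X] [DecidableEq X] : Finset X ≃ (X → Bool) where
  toFun y := fun x => decide (x ∈ y)
  invFun ω := univ.filter fun x => ω x = true
  left_inv y := by ext x; simp
  right_inv ω := by funext x; simp

lemma sum_bernoulli (p : ℝ) (f : (X → Bool) → ℝ) :
    ∑ ω, FinProb.bernoulliWeight p ω * f ω = ∑ y, wt p y * f (boolEquiv X y) := by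
  rw [← Equiv.sum_comp (boolEquiv X)]
  refine sum_congr rfl fun y _ => ?_
  simp [FinProb.bernoulliWeight, wt, boolEquiv]

end Abstract

open Crest.CombinatoricsR.RandomGraph

instance edgeAction (n : ℕ) : MulAction (Equiv.Perm (Fin n)) (EdgeSlot n) where
  smul σ e := ⟨e.1.map σ, by rw [Sym2.isDiag_map σ.injective]; exact e.2⟩
  one_smul e := Subtype.ext (by change e.1.map _ = _; simp)
  mul_smul σ τ e := Subtype.ext (by
    change e.1.map _ = (e.1.map _).map _
    rw [Sym2.map_map]; rfl)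

lemma smul_val {n : ℕ} (σ : Equiv.Perm (Fin n)) (e : EdgeSlot n) : (σ • e).1 = e.1.map σ := rfl

lemma graphOf_adj {n : ℕ} (y : Finset (EdgeSlot n)) (a b : Fin n) :
    (graphOf (boolEquiv _ y)).Adj a b ↔ ∃ e ∈ y, e.1 = s(a, b) := by
  simp only [graphOf, SimpleGraph.fromEdgeSet_adj, Set.mem_ofPred_eq, boolEquiv, Equiv.coe_fn_mk,
    decide_eq_true_eq]
  constructor
  · rintro ⟨⟨h, h'⟩, -⟩
    exact ⟨_, h', rfl⟩
  · rintro ⟨⟨e, he⟩, h, rfl⟩
    exact ⟨⟨he, h⟩, by simpa using he⟩

section Graph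

variable {n : ℕ} {W : Type} (H : SimpleGraph W) (ι : W ↪ Fin n)

open Classical in
/-- The edge slots of the embedded graph. -/
noncomputable def slots : Finset (EdgeSlot n) :=
  univ.filter fun e => ∃ a b, H.Adj a b ∧ e.1 = s(ι a, ι b)

lemma mem_slots {e : EdgeSlot n} : e ∈ slots H ι ↔ ∃ a b, H.Adj a b ∧ e.1 = s(ι a, ι b) := by
  simp [slots]

/-- The subgraph of `H` spanned by a set of slots. -/
def subOf (A : Finset (EdgeSlot n)) : H.Subgraph where
  verts := {a | ∃ b, H.Adj a b ∧ ∃ e ∈ A, e.1 = s(ι a, ι b)}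
  Adj a b := H.Adj a b ∧ ∃ e ∈ A, e.1 = s(ι a, ι b)
  adj_sub h := h.1
  edge_vert h := ⟨_, h⟩
  symm := ⟨fun _ _ h => ⟨h.1.symm, by
    obtain ⟨e, he, h'⟩ := h.2
    exact ⟨e, he, by rw [h', Sym2.eq_swap]⟩⟩⟩

lemma copyCount_le [Finite W] {A : Finset (EdgeSlot n)} (hA : A ⊆ slots H ι) (y : Finset (EdgeSlot n)) :
    (graphOf (boolEquiv _ y)).copyCount (subOf H ι A).coe ≤
      ((univ.image fun σ : Equiv.Perm (Fin n) => σ • A).filter fun B => B ⊆ y).card := by
  classical
  unfold SimpleGraph.copyCount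
  refine card_le_card_of_injOn
    (fun G' => univ.filter fun e : EdgeSlot n => e.1 ∈ G'.edgeSet) ?_ ?_
  · intro G' hG'
    obtain ⟨φ⟩ := (mem_filter.1 (mem_coe.1 hG')).2
    obtain ⟨σ, hσ⟩ := Equiv.Perm.exists_extending_pair
      (f := fun v : (subOf H ι A).verts => ι v.1) (g := fun v => (φ v).1)
      (ι.injective.comp Subtype.val_injective) (Subtype.val_injective.comp φ.injective)
    refine mem_coe.2 (mem_filter.2 ⟨mem_image.2 ⟨σ, mem_univ _, ?_⟩, ?_⟩)
    · ext e
      rw [mem_smul_finset, mem_filter]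
      constructor
      · rintro ⟨e0, he0, rfl⟩
        obtain ⟨a, b, hab, he⟩ := (mem_slots H ι).1 (hA he0)
        have hF : (subOf H ι A).Adj a b := ⟨hab, e0, he0, he⟩
        have h1 := φ.map_adj_iff.2 (show (subOf H ι A).coe.Adj ⟨a, (subOf H ι A).edge_vert hF⟩
          ⟨b, (subOf H ι A).edge_vert hF.symm⟩ from hF)
        refine ⟨mem_univ _, ?_⟩
        rw [smul_val, he, Sym2.map_mk, hσ ⟨a, _⟩, hσ ⟨b, _⟩]
        exact h1
      · rintro ⟨-, he⟩
        obtain ⟨e, hd⟩ := e
        induction e using Sym2.ind with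
        | _ x y' =>
          have hxy : G'.Adj x y' := he
          have h1 := φ.symm.map_adj_iff.2 (show G'.coe.Adj ⟨x, G'.edge_vert hxy⟩
            ⟨y', G'.edge_vert hxy.symm⟩ from hxy)
          obtain ⟨-, e0, he0, h2⟩ := h1
          refine ⟨e0, he0, Subtype.ext ?_⟩
          rw [smul_val, h2, Sym2.map_mk, hσ, hσ]
          simp
    · intro e he
      obtain ⟨e, hd⟩ := e
      induction e using Sym2.ind with
      | _ x y' =>
        have hxy : G'.Adj x y' := (mem_filter.1 he).2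
        obtain ⟨e', he', h'⟩ := (graphOf_adj y x y').1 (G'.adj_sub hxy)
        have : e' = ⟨s(x, y'), hd⟩ := Subtype.ext h'
        exact this ▸ he'
  · have hv : ∀ G' : (graphOf (boolEquiv _ y)).Subgraph, Nonempty ((subOf H ι A).coe ≃g G'.coe) →
        ∀ x, x ∈ G'.verts ↔ ∃ z, G'.Adj x z := by
      rintro G' ⟨φ⟩ x
      refine ⟨fun hx => ?_, fun ⟨z, hz⟩ => G'.edge_vert hz⟩
      obtain ⟨b, hb⟩ := (φ.symm ⟨x, hx⟩).2
      have hF : (subOf H ι A).Adj (φ.symm ⟨x, hx⟩).1 b := hb
      have h1 := φ.map_adj_iff.2 (show (subOf H ι A).coe.Adj (φ.symm ⟨x, hx⟩)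
          ⟨b, (subOf H ι A).edge_vert hF.symm⟩ from hF)
      rw [RelIso.apply_symm_apply] at h1
      exact ⟨_, h1⟩
    intro G1 h1 G2 h2 he
    have hadj : ∀ a b, G1.Adj a b ↔ G2.Adj a b := by
      intro a b
      by_cases hab : a = b
      · subst hab
        exact ⟨fun h => absurd rfl (G1.adj_sub h).ne, fun h => absurd rfl (G2.adj_sub h).ne⟩
      · have := Finset.ext_iff.1 he ⟨s(a, b), by simpa using hab⟩
        simpa using this
    refine SimpleGraph.Subgraph.ext ?_ ?_
    · ext x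
      rw [hv G1 (mem_filter.1 (mem_coe.1 h1)).2, hv G2 (mem_filter.1 (mem_coe.1 h2)).2]
      simp_rw [hadj]
    · ext a b; exact hadj a b

lemma expect_le [Finite W] {A : Finset (EdgeSlot n)} (hA : A ⊆ slots H ι) {p : ℝ} (hp0 : 0 ≤ p) (hp1 : p ≤ 1) :
    gnpExpect n p (fun G => (G.copyCount (subOf H ι A).coe : ℝ)) ≤
      ((univ.image fun σ : Equiv.Perm (Fin n) => σ • A).card : ℝ) * p ^ A.card := by
  rw [gnpExpect, sum_bernoulli p (fun ω => ((graphOf ω).copyCount (subOf H ι A).coe : ℝ))]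
  calc _ ≤ ∑ y, wt p y * ∑ B ∈ univ.image fun σ : Equiv.Perm (Fin n) => σ • A,
        (if B ⊆ y then (1 : ℝ) else 0) := by
        refine sum_le_sum fun y _ => mul_le_mul_of_nonneg_left ?_ (wt_nonneg hp0 hp1 y)
        rw [sum_boole]
        exact_mod_cast copyCount_le H ι hA y
    _ = ∑ B ∈ univ.image fun σ : Equiv.Perm (Fin n) => σ • A, p ^ A.card := by
        simp_rw [mul_sum]
        rw [sum_comm]
        refine sum_congr rfl fun B hB => ?_
        obtain ⟨σ, -, rfl⟩ := mem_image.1 hB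
        rw [sum_wt_subset, card_smul_finset]
    _ = _ := by rw [sum_const, nsmul_eq_mul]

lemma contained_smul (σ : Equiv.Perm (Fin n)) :
    H.IsContained (graphOf (boolEquiv _ (σ • slots H ι))) := by
  refine ⟨⟨⟨fun a => σ (ι a), fun {a b} hab => ?_⟩, σ.injective.comp ι.injective⟩⟩
  rw [graphOf_adj]
  have hd : ¬ (s(ι a, ι b)).IsDiag := by simpa using hab.ne
  refine ⟨σ • ⟨s(ι a, ι b), hd⟩, smul_mem_smul_finset ?_, by simp [smul_val]⟩
  exact (mem_slots H ι).2 ⟨a, b, hab, rfl⟩

lemma card_slots_le [Fintype W] [DecidableEq W] [DecidableRel H.Adj] :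
    (slots H ι).card ≤ H.edgeFinset.card := by
  classical
  rw [← card_image_of_injective _ Subtype.val_injective]
  refine le_trans (card_le_card ?_) (card_image_le (f := Sym2.map ι))
  intro z hz
  obtain ⟨e, he, rfl⟩ := mem_image.1 hz
  obtain ⟨a, b, hab, h⟩ := (mem_slots H ι).1 he
  exact mem_image.2 ⟨s(a, b), by simpa using hab, by simp [h]⟩

lemma slots_nonempty [Fintype W] [DecidableEq W] [DecidableRel H.Adj]
    (h : 1 ≤ H.edgeFinset.card) : (slots H ι).Nonempty := by
  classical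
  obtain ⟨z, hz⟩ := card_pos.1 h
  induction z using Sym2.ind with
  | _ a b =>
    have hab : H.Adj a b := by simpa using hz
    exact ⟨⟨s(ι a, ι b), by simpa using hab.ne⟩, (mem_slots H ι).2 ⟨a, b, hab, rfl⟩⟩

end Graph

end Crest.Agent.R55
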