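import Crest.Agent.R55.Loss

/-! Group averages of weights and the information functional. -/

set_option autoImplicit false

namespace Crest.Agent.R55

open Finset Real

variable (Γ : Type) [Group Γ] [Fintype Γ]

/-- Average of a weight over the group action. -/
noncomputable def hat {T : Type} [MulAction Γ T] (m : T → ℝ) (t : T) : ℝ :=
  (∑ σ : Γ, m (σ • t)) / Fintype.card Γ

/-- The mutual information between `σ • t` and `σ`, for `t` of law `m`. -/
noncomputable def info {T : Type} [Fintype T] [MulAction Γ T] (m : T → ℝ) : ℝ :=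
  ∑ t, m t * (log (m t) - log (hat Γ m t))

/-- Push-forward of a weight. -/
noncomputable def push {T T' : Type} [Fintype T] [DecidableEq T'] (φ : T → T') (m : T → ℝ)
    (t' : T') : ℝ := ∑ t, if φ t = t' then m t else 0

variable {Γ}

lemma card_pos' : (0 : ℝ) < Fintype.card Γ := by exact_mod_cast Fintype.card_pos

section
variable {T : Type} [MulAction Γ T]

lemma hat_smul (m : T → ℝ) (τ : Γ) (t : T) : hat Γ m (τ • t) = hat Γ m t := by
  unfold hat
  congr 1
  simp_rw [smul_smul]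
  exact Equiv.sum_comp (Equiv.mulRight τ) (fun σ => m (σ • t))

lemma hat_nonneg {m : T → ℝ} (hm : ∀ t, 0 ≤ m t) (t : T) : 0 ≤ hat Γ m t :=
  div_nonneg (sum_nonneg fun _ _ => hm _) card_pos'.le

lemma hat_pos {m : T → ℝ} (hm : ∀ t, 0 ≤ m t) {t : T} (ht : 0 < m t) : 0 < hat Γ m t := by
  refine div_pos (lt_of_lt_of_le ?_ (single_le_sum (f := fun σ : Γ => m (σ • t))
    (fun _ _ => hm _) (mem_univ 1))) card_pos'
  simpa using ht

lemma hat_mul_inv (m f : T → ℝ) (hf : ∀ (σ : Γ) t, f (σ • t) = f t) (t : T) :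
    hat Γ (fun t => m t * f t) t = hat Γ m t * f t := by
  unfold hat
  simp_rw [hf]
  rw [← sum_mul]; ring

lemma exists_of_hat_ne_zero {m : T → ℝ} {t : T} (h : hat Γ m t ≠ 0) : ∃ σ : Γ, m (σ • t) ≠ 0 := by
  by_contra hc
  push Not at hc
  exact h (by simp [hat, hc])

variable [Fintype T]

omit [Fintype Γ] in
lemma sum_smul_eq (f : T → ℝ) (σ : Γ) : ∑ t, f (σ • t) = ∑ t, f t :=
  Equiv.sum_comp (MulAction.toPerm σ) f

lemma sum_hat_mul (m f : T → ℝ) (hf : ∀ (σ : Γ) t, f (σ • t) = f t) :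
    ∑ t, hat Γ m t * f t = ∑ t, m t * f t := by
  unfold hat
  simp_rw [div_mul_eq_mul_div, sum_mul]
  rw [← sum_div, sum_comm]
  have : ∀ σ : Γ, ∑ t, m (σ • t) * f t = ∑ t, m t * f t := fun σ => by
    rw [← sum_smul_eq (fun t => m t * f t) σ]; simp_rw [hf]
  simp_rw [this]
  rw [sum_const, card_univ, nsmul_eq_mul, mul_div_cancel_left₀ _ card_pos'.ne']

lemma sum_hat (m : T → ℝ) : ∑ t, hat Γ m t = ∑ t, m t := by
  simpa using sum_hat_mul (Γ := Γ) m (fun _ => 1) (fun _ _ => rfl)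

/-- Variational upper bound for the information. -/
lemma info_le {m Q : T → ℝ} (hm : ∀ t, 0 ≤ m t) (hQ : ∀ t, 0 ≤ Q t)
    (hinv : ∀ (σ : Γ) t, Q (σ • t) = Q t) (hpos : ∀ t, 0 < m t → 0 < Q t)
    (hsum : ∑ t, Q t ≤ ∑ t, m t) : info Γ m ≤ ∑ t, m t * (log (m t) - log (Q t)) := by
  have h1 := gibbs (p := hat Γ m) (q := Q) (hat_nonneg hm) hQ (fun t ht => by
    obtain ⟨σ, hσ⟩ := exists_of_hat_ne_zero ht.ne'
    rw [← hinv σ]
    exact hpos _ ((hm _).lt_of_ne' hσ))
  rw [sum_hat_mul m (fun t => log (Q t) - log (hat Γ m t))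
    (fun σ t => by rw [hinv, hat_smul]), sum_hat] at h1
  have h2 : info Γ m - ∑ t, m t * (log (m t) - log (Q t)) =
      ∑ t, m t * (log (Q t) - log (hat Γ m t)) := by
    rw [info, ← sum_sub_distrib]
    exact sum_congr rfl fun t _ => by ring
  linarith

variable {T' : Type} [DecidableEq T']

lemma sum_push_mul [Fintype T'] (φ : T → T') (m : T → ℝ) (f : T' → ℝ) :
    ∑ t', push φ m t' * f t' = ∑ t, m t * f (φ t) := (sum_key φ m f).symm

lemma push_nonneg (φ : T → T') {m : T → ℝ} (hm : ∀ t, 0 ≤ m t) (t' : T') : 0 ≤ push φ m t' :=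
  sum_nonneg fun t _ => by split_ifs; exacts [hm t, le_rfl]

lemma le_push (φ : T → T') {m : T → ℝ} (hm : ∀ t, 0 ≤ m t) (t : T) : m t ≤ push φ m (φ t) := by
  have := single_le_sum (f := fun t₀ => if φ t₀ = φ t then m t₀ else 0)
    (fun t₀ _ => by split_ifs; exacts [hm t₀, le_rfl]) (mem_univ t)
  simpa [push] using this

lemma exists_of_push_ne_zero {φ : T → T'} {m : T → ℝ} {t' : T'} (h : push φ m t' ≠ 0) :
    ∃ t, φ t = t' ∧ m t ≠ 0 := by
  by_contra hc
  push Not at hc
  refine h (sum_eq_zero fun t _ => ?_)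
  split_ifs with h1
  exacts [hc t h1, rfl]

lemma hat_push [MulAction Γ T'] (φ : T → T') (hφ : ∀ (σ : Γ) t, φ (σ • t) = σ • φ t) (m : T → ℝ)
    (t' : T') : hat Γ (push φ m) t' = push φ (hat Γ m) t' := by
  unfold hat push
  have : ∀ σ : Γ, (∑ t, if φ t = σ • t' then m t else 0) =
      ∑ t, if φ t = t' then m (σ • t) else 0 := fun σ => by
    rw [← sum_smul_eq (fun t => if φ t = σ • t' then m t else 0) σ]
    simp only [hφ, smul_left_cancel_iff]
  simp_rw [this]
  rw [sum_comm, sum_div]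
  refine sum_congr rfl fun t _ => ?_
  split_ifs <;> simp

lemma info_smul (r : ℝ) (hr : 0 < r) {m : T → ℝ} (hm : ∀ t, 0 ≤ m t) :
    info Γ (fun t => m t * r) = info Γ m * r := by
  unfold info
  rw [sum_mul]
  refine sum_congr rfl fun t _ => ?_
  rw [hat_mul_inv m (fun _ => r) (fun _ _ => rfl)]
  rcases (hm t).eq_or_lt with h | h
  · simp [← h]
  · rw [Real.log_mul h.ne' hr.ne', Real.log_mul (hat_pos hm h).ne' hr.ne']; ring

lemma info_split (m : T → ℝ) (P : T → Prop) [DecidablePred P]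
    (hP : ∀ (σ : Γ) t, P (σ • t) ↔ P t) :
    info Γ m = info Γ (fun t => m t * if P t then 1 else 0)
      + info Γ (fun t => m t * if P t then 0 else 1) := by
  unfold info
  rw [← sum_add_distrib]
  refine sum_congr rfl fun t _ => ?_
  rw [hat_mul_inv m (fun t => if P t then 1 else 0) (fun σ t => by simp only [hP]),
    hat_mul_inv m (fun t => if P t then 0 else 1) (fun σ t => by simp only [hP])]
  by_cases h : P t <;> simp [h]

end

end Crest.Agent.R55
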