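import Crest.Agent.R55.Hat

/-! The self-improving inequality. -/

set_option autoImplicit false

namespace Crest.Agent.R55

open Finset Real
open scoped Pointwise symmDiff

variable {X : Type} [Fintype X] [DecidableEq X]

/-- The family of inequalities with constant `κ`. -/
def EE (Γ : Type) [Group Γ] [Fintype Γ] [MulAction Γ X] (H : Finset X) (L κ : ℝ) : Prop :=
  ∀ (T : Type) [Fintype T] [MulAction Γ T] (ρ U : T → Finset X),
    (∀ (σ : Γ) t, ρ (σ • t) = σ • ρ t) → (∀ (σ : Γ) t, U (σ • t) = σ • U t) →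
    ∀ A : Finset X, A ⊆ H → ∀ m : T → ℝ, (∀ t, 0 ≤ m t) →
    (∀ t, m t ≠ 0 → ρ t = A ∧ U t ⊆ H \ A) → ∀ c : X → ℝ, (∀ x, 0 ≤ c x) →
    (∑ t, m t) * (A.card * L - log 2) + (L - κ) * ∑ t, m t * (U t).card
      + ∑ x, (3 / 2 * c x * (∑ t, if x ∈ U t then m t else 0) - c x ^ 3 * (∑ t, m t) / 2)
      ≤ info Γ m

lemma card_eq_sum (s : Finset X) : (s.card : ℝ) = ∑ x, if x ∈ s then 1 else 0 := by simp

lemma sum_mul_card {T : Type} [Fintype T] (m : T → ℝ) (U : T → Finset X) :
    ∑ t, m t * (U t).card = ∑ x, ∑ t, if x ∈ U t then m t else 0 := by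
  rw [sum_comm]
  refine sum_congr rfl fun t _ => ?_
  simp [mul_comm]

/-- Entropy of a random set, bounded through a product weight. -/
lemma entropy_le {T : Type} [Fintype T] (m : T → ℝ) (hm : ∀ t, 0 ≤ m t) (h1 : ∑ t, m t = 1)
    (Z : T → Finset X) :
    -∑ t, m t * log (push Z m (Z t)) ≤ ∑ x, (-((∑ t, if x ∈ Z t then m t else 0) *
      log (∑ t, if x ∈ Z t then m t else 0)) + ∑ t, if x ∈ Z t then m t else 0) := by
  set θ : X → ℝ := fun x => ∑ t, if x ∈ Z t then m t else 0 with hθ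
  have hθ0 : ∀ x, 0 ≤ θ x := fun x => sum_nonneg fun t _ => by split_ifs; exacts [hm t, le_rfl]
  have hθp : ∀ t, 0 < m t → ∀ x ∈ Z t, 0 < θ x := fun t ht x hx => by
    have := single_le_sum (f := fun t => if x ∈ Z t then m t else 0)
      (fun t _ => by split_ifs; exacts [hm t, le_rfl]) (mem_univ t)
    simp only [hx, if_true] at this
    exact ht.trans_le this
  have hD : 0 < ∏ x, (1 + θ x) := prod_pos fun x _ => by linarith [hθ0 x]
  have hg := gibbs (p := push Z m) (q := fun W => (∏ x ∈ W, θ x) / ∏ x, (1 + θ x))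
    (push_nonneg Z hm) (fun W => div_nonneg (prod_nonneg fun x _ => hθ0 x) hD.le) (fun W hW => by
      obtain ⟨t, rfl, ht⟩ := exists_of_push_ne_zero hW.ne'
      exact div_pos (prod_pos (hθp t ((hm t).lt_of_ne' ht))) hD)
  have e1 : ∑ W : Finset X, (∏ x ∈ W, θ x) / ∏ x, (1 + θ x) = 1 := by
    rw [← sum_div, Finset.prod_one_add, powerset_univ, div_self]
    rw [← powerset_univ, ← Finset.prod_one_add]; exact hD.ne'
  have e2 : ∑ W, push Z m W = 1 := by simpa [h1] using sum_push_mul Z m (fun _ => 1)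
  rw [e1, e2, sum_push_mul] at hg
  have e3 : ∑ t, m t * (log ((∏ x ∈ Z t, θ x) / ∏ x, (1 + θ x)) - log (push Z m (Z t))) =
      ∑ x, θ x * log (θ x) - ∑ x, log (1 + θ x) - ∑ t, m t * log (push Z m (Z t)) := by
    have : ∀ t, m t * (log ((∏ x ∈ Z t, θ x) / ∏ x, (1 + θ x)) - log (push Z m (Z t))) =
        (∑ x, (if x ∈ Z t then m t else 0) * log (θ x)) - m t * ∑ x, log (1 + θ x)
          - m t * log (push Z m (Z t)) := by
      intro t
      rcases (hm t).eq_or_lt with h | h
      · simp [← h]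
      · rw [Real.log_div (prod_pos (hθp t h)).ne' hD.ne',
          Real.log_prod (fun x hx => (hθp t h x hx).ne'),
          Real.log_prod (fun x _ => by linarith [hθ0 x])]
        simp only [ite_mul, zero_mul, sum_ite_mem, univ_inter]
        rw [← mul_sum]; ring
    simp_rw [this]
    rw [sum_sub_distrib, sum_sub_distrib, ← sum_mul, h1, one_mul, sum_comm]
    simp_rw [← sum_mul]
    rfl
  have e4 : ∑ x, log (1 + θ x) ≤ ∑ x, θ x := sum_le_sum fun x _ => by
    have := Real.log_le_sub_one_of_pos (show 0 < 1 + θ x by linarith [hθ0 x]); linarith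
  rw [e3] at hg
  rw [sum_add_distrib, sum_neg_distrib]
  linarith

lemma final_scalar {v : ℝ} (h0 : 0 ≤ v) (h1 : v ≤ 1) :
    -(v ^ 4 * log (v ^ 4)) + v ^ 4 + 1 / 2 * v ^ 3 + 2 * v ^ 3
      - (3 / 2 * (3 / 2 * v) * (2 * v ^ 2 - 2 * v ^ 4) - (3 / 2 * v) ^ 3 / 2)
      ≤ 27 / 2 * v ^ 4 := by
  have h5 : v ^ 5 ≤ v ^ 4 := pow_le_pow_of_le_one h0 h1 (by norm_num)
  have h3 : 0 ≤ v ^ 3 := by positivity
  have h6 : -(v ^ 4 * log (v ^ 4)) ≤ v ^ 3 / 4 + 8 * v ^ 4 := by
    rcases h0.eq_or_lt with h | h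
    · subst h; simp
    · have a1 := Real.log_le_sub_one_of_pos (show 0 < 1 / (16 * v) by positivity)
      have a2 : log (1 / (16 * v)) = -(4 * log 2) - log v := by
        rw [one_div, Real.log_inv, Real.log_mul (by norm_num) h.ne',
          show (16 : ℝ) = 2 ^ 4 by norm_num, Real.log_pow]
        push_cast; ring
      have a3 := Real.log_two_lt_d9
      have a4 : -log v ≤ 1 / (16 * v) + 2 := by linarith
      have a5 := mul_le_mul_of_nonneg_left a4 (show 0 ≤ 4 * v ^ 4 by positivity)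
      have a6 : 4 * v ^ 4 * (1 / (16 * v) + 2) = v ^ 3 / 4 + 8 * v ^ 4 := by field_simp; ring
      rw [Real.log_pow]; push_cast; linarith
  nlinarith

variable {Γ : Type} [Group Γ] [Fintype Γ] [MulAction Γ X]

set_option maxHeartbeats 800000 in
theorem improve {H : Finset X} {L κ : ℝ} (hE : EE Γ H L κ) {T : Type} [Fintype T] [MulAction Γ T]
    (ρ U : T → Finset X) (hρ : ∀ (σ : Γ) t, ρ (σ • t) = σ • ρ t)
    (hU : ∀ (σ : Γ) t, U (σ • t) = σ • U t) {A : Finset X} (hA : A ⊆ H) {μ : T → ℝ}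
    (hμ : ∀ t, 0 ≤ μ t) (hs : ∀ t, μ t ≠ 0 → ρ t = A ∧ U t ⊆ H \ A) (h1 : ∑ t, μ t = 1) :
    (κ - 15) * ∑ x, (∑ t, if x ∈ U t then μ t else 0) ^ 2 ≤
      5 / 2 * (info Γ μ - ((A.card * L - log 2) + (L - κ) * ∑ t, μ t * (U t).card
        + ∑ x, psi (∑ t, if x ∈ U t then μ t else 0) 1)) := by
  classical
  set u : X → ℝ := fun x => ∑ t, if x ∈ U t then μ t else 0 with hu
  have hu0 : ∀ x, 0 ≤ u x := fun x => sum_nonneg fun t _ => by split_ifs; exacts [hμ t, le_rfl]
  have hu1 : ∀ x, u x ≤ 1 := fun x => h1 ▸ sum_le_sum fun t _ => by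
    split_ifs; exacts [le_rfl, hμ t]
  set μ2 : T × T → ℝ := fun q => μ q.1 * μ q.2 with hμ2
  have hμ20 : ∀ q, 0 ≤ μ2 q := fun q => mul_nonneg (hμ _) (hμ _)
  have h12 : ∑ q, μ2 q = 1 := by
    rw [Fintype.sum_prod_type]; simp only [hμ2]; rw [← sum_mul_sum, h1, one_mul]
  set Zf : T × T → Finset X := fun q => U q.1 ∩ U q.2 with hZf
  set ω : T × Finset X → ℝ := push (fun q : T × T => (q.1, Zf q)) μ2 with hω
  have hω0 : ∀ p, 0 ≤ ω p := push_nonneg _ hμ20
  have sω : ∀ f : T × Finset X → ℝ, ∑ p, ω p * f p = ∑ q, μ2 q * f (q.1, Zf q) :=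
    fun f => sum_push_mul _ _ f
  have sω' : ∀ f : T × Finset X → ℝ, ∑ p, ω p * f p = ∑ q, μ2 q * f (q.2, Zf q) := by
    intro f
    rw [sω, ← Equiv.sum_comp (Equiv.prodComm T T)]
    refine sum_congr rfl fun q _ => ?_
    simp only [hμ2, hZf, Equiv.prodComm_apply, Prod.fst_swap, Prod.snd_swap]
    rw [mul_comm (μ q.2), inter_comm]
  have sfst : ∀ f : T → ℝ, ∑ q, μ2 q * f q.1 = ∑ t, μ t * f t := by
    intro f
    rw [Fintype.sum_prod_type]
    refine sum_congr rfl fun t _ => ?_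
    simp only [hμ2]
    rw [← sum_mul, ← mul_sum, h1, mul_one]
  have hωμ : push Prod.fst ω = μ := by
    funext t
    have := sω (fun p => if p.1 = t then 1 else 0)
    rw [sfst (fun t' => if t' = t then 1 else 0)] at this
    simpa [push] using this
  set oh := hat Γ ω with hoh
  set mh := hat Γ μ with hmh
  have hoh0 : ∀ p, 0 ≤ oh p := hat_nonneg hω0
  have hmh0 : ∀ t, 0 ≤ mh t := hat_nonneg hμ
  have hohi : ∀ (σ : Γ) p, oh (σ • p) = oh p := hat_smul ω
  have hmhi : ∀ (σ : Γ) t, mh (σ • t) = mh t := hat_smul μ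
  have hmo : ∀ t, mh t = ∑ W, oh (t, W) := by
    intro t
    rw [hmh, ← hωμ, hat_push (Γ := Γ) Prod.fst (fun _ _ => rfl), push, Fintype.sum_prod_type,
      sum_comm]
    simp [hoh]
  have hosub : ∀ t W, oh (t, W) ≠ 0 → W ⊆ U t := by
    intro t W h
    obtain ⟨σ, hσ⟩ := exists_of_hat_ne_zero h
    obtain ⟨q, hq, -⟩ := exists_of_push_ne_zero hσ
    simp only [Prod.smul_mk, Prod.mk.injEq] at hq
    rw [← smul_finset_subset_smul_finset_iff (a := σ), ← hq.2, ← hU, ← hq.1]
    exact inter_subset_left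
  set w : T × Finset X → ℝ := fun p => μ p.1 * (oh p / mh p.1) with hw
  have hw0 : ∀ p, 0 ≤ w p := fun p => mul_nonneg (hμ _) (div_nonneg (hoh0 _) (hmh0 _))
  have hwpos : ∀ p, w p ≠ 0 → 0 < μ p.1 ∧ 0 < oh p ∧ 0 < mh p.1 := by
    intro p hp
    have a1 : μ p.1 ≠ 0 := left_ne_zero_of_mul hp
    have a2 : oh p / mh p.1 ≠ 0 := right_ne_zero_of_mul hp
    rw [div_ne_zero_iff] at a2
    exact ⟨(hμ _).lt_of_ne' a1, (hoh0 _).lt_of_ne' a2.1, (hmh0 _).lt_of_ne' a2.2⟩
  have hwμ : ∀ t, ∑ W, w (t, W) = μ t := by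
    intro t
    simp only [hw]
    rw [← mul_sum, ← sum_div, ← hmo]
    rcases (hμ t).eq_or_lt with h | h
    · simp [← h]
    · rw [div_self (hat_pos hμ h).ne', mul_one]
  have hwhat : hat Γ w = oh := by
    funext p
    rw [hw, hat_mul_inv (fun p : T × Finset X => μ p.1) (fun p => oh p / mh p.1)
      (fun σ p => by rw [hohi, Prod.smul_fst, hmhi])]
    change mh p.1 * (oh p / mh p.1) = oh p
    rcases (hmh0 p.1).eq_or_lt with h | h
    · have a1 : oh p ≤ mh p.1 := by
        rw [hmo]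
        exact single_le_sum (f := fun W => oh (p.1, W)) (fun _ _ => hoh0 _) (mem_univ p.2)
      rw [← h] at a1 ⊢
      rw [zero_mul]; exact le_antisymm (hoh0 p) a1
    · field_simp
  have swω : ∀ f : T × Finset X → ℝ, (∀ (σ : Γ) p, f (σ • p) = f p) →
      ∑ p, ω p * f p = ∑ p, w p * f p := fun f hf => by
    rw [← sum_hat_mul ω f hf, ← sum_hat_mul w f hf, hwhat]
  have swfst : ∀ f : T → ℝ, ∑ p, w p * f p.1 = ∑ t, μ t * f t := by
    intro f
    rw [Fintype.sum_prod_type]
    refine sum_congr rfl fun t _ => ?_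
    simp only
    rw [← sum_mul, hwμ]
  have hw1 : ∑ p, w p = 1 := by simpa [h1] using swfst (fun _ => 1)
  set n : Finset X → ℝ := fun W => ∑ t, w (t, W) with hn
  have hnpos : ∀ p, w p ≠ 0 → 0 < n p.2 := fun p hp => ((hw0 p).lt_of_ne' hp).trans_le
    (single_le_sum (f := fun t => w (t, p.2)) (fun _ _ => hw0 _) (mem_univ p.1))
  set s : ℝ := ∑ x, u x ^ 2 with hsdef
  set a : ℝ := ∑ t, μ t * (U t).card with hadef
  have ha : a = ∑ x, u x := sum_mul_card μ U
  have hZx : ∀ x, (∑ q, if x ∈ Zf q then μ2 q else 0) = u x ^ 2 := by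
    intro x
    rw [Fintype.sum_prod_type, sq, hu]
    simp only
    rw [sum_mul_sum]
    refine sum_congr rfl fun t _ => sum_congr rfl fun t' _ => ?_
    by_cases h : x ∈ U t <;> by_cases h' : x ∈ U t' <;> simp [hZf, hμ2, h, h']
  have hs1 : ∑ q, μ2 q * (Zf q).card = s := by
    rw [sum_mul_card]; simp_rw [hZx]; rfl
  have hs2 : ∑ p, w p * p.2.card = s := by
    rw [← swω (fun p => (p.2.card : ℝ)) (fun σ p => by rw [Prod.smul_snd, card_smul_finset]),
      sω, hs1]
  -- the fake structure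
  set φ : T × Finset X → Finset X × Finset X := fun p => (ρ p.1, p.2) with hφ
  have hφe : ∀ (σ : Γ) p, φ (σ • p) = σ • φ p := fun σ p => by
    simp only [hφ, Prod.smul_fst, Prod.smul_snd, hρ, Prod.smul_mk]
  set ν := push φ w with hν
  set N := push φ oh with hN
  have hνN : hat Γ ν = N := by
    funext b; rw [hν, hat_push φ hφe, hwhat]
  have hNi : ∀ (σ : Γ) b, N (σ • b) = N b := fun σ b => by rw [← hνN, hat_smul]
  have hN0 : ∀ b, 0 ≤ N b := push_nonneg φ hoh0
  have hνn : ∀ p, w p ≠ 0 → ν (φ p) = n p.2 := by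
    intro p hp
    rw [hν, push, Fintype.sum_prod_type, hn]
    refine sum_congr rfl fun t _ => ?_
    simp only [hφ, Prod.mk.injEq]
    by_cases h : w (t, p.2) = 0
    · rw [h]
      refine sum_eq_zero fun W _ => ?_
      split_ifs with h'
      · rw [h'.2, h]
      · rfl
    · have : ρ t = ρ p.1 := by
        rw [(hs t (hwpos _ h).1.ne').1, (hs _ (hwpos _ hp).1.ne').1]
      simp [this]
  set mark : ℝ := ∑ p, w p * (log (mh p.1) - log (oh p)) with hmark
  set Hn : ℝ := -∑ p, w p * log (n p.2) with hHn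
  have hII : (A.card * L - log 2) + (L - κ) * s ≤ -Hn - ∑ p, w p * log (N (φ p)) := by
    have := hE (Finset X × Finset X) Prod.fst Prod.snd (fun _ _ => rfl) (fun _ _ => rfl) A hA ν
      (push_nonneg φ hw0) (fun b hb => by
        obtain ⟨p, rfl, hp⟩ := exists_of_push_ne_zero hb
        have := hs _ (hwpos _ hp).1.ne'
        exact ⟨this.1, (hosub p.1 p.2 (hwpos _ hp).2.1.ne').trans this.2⟩)
      (fun _ => 0) (fun _ => le_rfl)
    have e1 : ∑ b, ν b = 1 := by simpa [hw1] using sum_push_mul φ w (fun _ => 1)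
    have e2 : ∑ b, ν b * (b.2.card : ℝ) = s := by
      rw [hν, sum_push_mul φ w (fun b => (b.2.card : ℝ)), ← hs2]
    have e3 : info Γ ν = -Hn - ∑ p, w p * log (N (φ p)) := by
      rw [info, hνN, hν, sum_push_mul φ w (fun b => log (push φ w b) - log (N b)), hHn, neg_neg,
        ← sum_sub_distrib]
      refine sum_congr rfl fun p _ => ?_
      by_cases h : w p = 0
      · simp [h]
      · rw [← hν, hνn p h]; ring
    rw [e1, e2, e3] at this
    simpa using this
  -- regularity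
  set Ψs : ℝ := ∑ x, ∑ W, psi (∑ t, if x ∈ U t then w (t, W) else 0) (n W) with hΨs
  have hlogw : ∀ p, w p * (log (w p) - log (μ p.1)) = w p * (log (oh p) - log (mh p.1)) := by
    intro p
    by_cases h : w p = 0
    · simp [h]
    · obtain ⟨a1, a2, a3⟩ := hwpos p h
      congr 1
      simp only [hw]
      rw [Real.log_mul a1.ne' (div_pos a2 a3).ne', Real.log_div a2.ne' a3.ne']; ring
  have hIII : (A.card * L - log 2) + (L - κ) * a + Ψs ≤ info Γ μ - mark + Hn := by
    have key : ∀ W, n W * (A.card * L - log 2) + (L - κ) * ∑ t, w (t, W) * (U t).card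
        + ∑ x, psi (∑ t, if x ∈ U t then w (t, W) else 0) (n W) ≤
        ∑ t, w (t, W) * (log (w (t, W)) - log (mh t) - log (n W)) := by
      intro W
      have b1 := hE T ρ U hρ hU A hA (fun t => w (t, W)) (fun t => hw0 _)
        (fun t ht => hs t (hwpos (t, W) ht).1.ne')
        (fun x => √((∑ t, if x ∈ U t then w (t, W) else 0) / n W)) (fun _ => Real.sqrt_nonneg _)
      have b2 := info_le (Γ := Γ) (m := fun t => w (t, W)) (Q := fun t => mh t * n W)
        (fun t => hw0 _) (fun t => mul_nonneg (hmh0 _) (sum_nonneg fun _ _ => hw0 _))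
        (fun σ t => by rw [hmhi]) (fun t ht => mul_pos (hwpos (t, W) ht.ne').2.2 (hnpos (t, W) ht.ne'))
        (by rw [← sum_mul, hmh, sum_hat, h1, one_mul])
      refine le_trans (le_of_eq ?_) (b1.trans (b2.trans (le_of_eq ?_)))
      · congr 1
        refine sum_congr rfl fun x _ => psi_eq (sum_nonneg fun t _ => ?_) (sum_le_sum fun t _ => ?_)
        · split_ifs; exacts [hw0 _, le_rfl]
        · split_ifs; exacts [le_rfl, hw0 _]
      · refine sum_congr rfl fun t _ => ?_
        by_cases h : w (t, W) = 0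
        · simp [h]
        · rw [Real.log_mul (hwpos _ h).2.2.ne' (hnpos _ h).ne']; ring
    have k2 := sum_le_sum (s := univ) fun W _ => key W
    rw [sum_add_distrib, sum_add_distrib, ← sum_mul, ← mul_sum] at k2
    have e1 : ∑ W, n W = 1 := by rw [← hw1, Fintype.sum_prod_type_right]
    have e2 : ∑ W, ∑ t, w (t, W) * (U t).card = a := by
      rw [hadef, ← swfst (fun t => ((U t).card : ℝ)), Fintype.sum_prod_type_right]
    have e3 : ∑ W, ∑ t, w (t, W) * (log (w (t, W)) - log (mh t) - log (n W)) =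
        info Γ μ - mark + Hn := by
      rw [info, ← swfst (fun t => log (μ t) - log (hat Γ μ t)), hmark, hHn, ← sub_eq_add_neg,
        ← sum_sub_distrib, ← sum_sub_distrib, Fintype.sum_prod_type_right]
      refine sum_congr rfl fun W _ => sum_congr rfl fun t _ => ?_
      have := hlogw (t, W)
      simp only at this ⊢
      rw [← hmh]
      linarith
    rw [e1, e2, e3, sum_comm] at k2
    linarith
  -- the loss lemma
  have hloss : 3 / 2 * mark - 1 / 2 * Hn ≤ 1 / 2 * Ψs + 3 / 2 * s := by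
    have := loss_lemma U (fun t W => w (t, W)) (fun t W => hw0 _)
      (fun t W h => hosub t W (hwpos (t, W) h).2.1.ne') (by rw [← hw1, Fintype.sum_prod_type])
    simp only [hwμ] at this
    rw [← Fintype.sum_prod_type (f := fun p => w p * (p.2.card : ℝ)), hs2,
      ← Fintype.sum_prod_type (f := fun p => w p * (-(3 / 2) * (log (w p) - log (μ p.1))
        + 1 / 2 * log (n p.2)))] at this
    refine le_trans (le_of_eq ?_) this
    rw [hmark, hHn, mul_neg, sub_neg_eq_add, mul_sum, mul_sum, ← sum_add_distrib]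
    refine sum_congr rfl fun p _ => ?_
    have := hlogw p
    linarith
  -- the doubled structure
  set R : T × T → ℝ := fun q => if ρ q.1 = ρ q.2 then
    oh (q.1, Zf q) * oh (q.2, Zf q) / N (ρ q.1, Zf q) else 0 with hR
  have hR0 : ∀ q, 0 ≤ R q := fun q => by
    simp only [hR]; split_ifs
    exacts [div_nonneg (mul_nonneg (hoh0 _) (hoh0 _)) (hN0 _), le_rfl]
  have hZe : ∀ (σ : Γ) q, Zf (σ • q) = σ • Zf q := fun σ q => by
    simp only [hZf, Prod.smul_fst, Prod.smul_snd, hU, smul_finset_inter]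
  have hRi : ∀ (σ : Γ) q, R (σ • q) = R q := fun σ q => by
    simp only [hR, hZe, Prod.smul_fst, Prod.smul_snd, hρ, smul_left_cancel_iff]
    rw [← Prod.smul_mk, ← Prod.smul_mk, ← Prod.smul_mk, hohi, hohi, hNi]
  have hNe : ∀ B W, N (B, W) = ∑ t, if ρ t = B then oh (t, W) else 0 := by
    intro B W
    rw [hN, push, Fintype.sum_prod_type]
    refine sum_congr rfl fun t _ => ?_
    simp only [hφ, Prod.mk.injEq]
    by_cases h : ρ t = B <;> simp [h]
  have hR1 : ∑ q, R q ≤ 1 := by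
    have e1 : ∀ q, R q ≤ ∑ W, if ρ q.2 = ρ q.1 then oh (q.1, W) / N (ρ q.1, W) * oh (q.2, W)
        else 0 := by
      intro q
      refine le_trans (le_of_eq ?_) (single_le_sum (f := fun W => if ρ q.2 = ρ q.1 then
        oh (q.1, W) / N (ρ q.1, W) * oh (q.2, W) else 0) (fun W _ => by
          split_ifs
          exacts [mul_nonneg (div_nonneg (hoh0 _) (hN0 _)) (hoh0 _), le_rfl]) (mem_univ (Zf q)))
      simp only [hR, eq_comm (a := ρ q.1)]
      split_ifs
      · ring
      · rfl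
    refine (sum_le_sum fun q _ => e1 q).trans ?_
    rw [Fintype.sum_prod_type]
    have e2 : ∑ p, oh p = 1 := by
      rw [hoh, sum_hat]; simpa [h12] using sω (fun _ => 1)
    rw [← e2, Fintype.sum_prod_type]
    refine sum_le_sum fun t _ => ?_
    rw [sum_comm]
    refine sum_le_sum fun W _ => ?_
    have e3 : (∑ t', if ρ t' = ρ t then oh (t, W) / N (ρ t, W) * oh (t', W) else 0) =
        oh (t, W) / N (ρ t, W) * N (ρ t, W) := by
      conv_rhs => rw [hNe (ρ t) W, mul_sum]
      rw [← hNe]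
      refine sum_congr rfl fun t' _ => ?_
      split_ifs <;> simp
    simp only
    rw [e3]
    rcases (hN0 (ρ t, W)).eq_or_lt with h | h
    · rw [← h, mul_zero]; exact hoh0 _
    · rw [div_mul_cancel₀ _ h.ne']
  have hpos : ∀ q, μ2 q ≠ 0 → ρ q.1 = ρ q.2 ∧ 0 < μ q.1 ∧ 0 < μ q.2 ∧ 0 < oh (q.1, Zf q) ∧
      0 < oh (q.2, Zf q) ∧ 0 < N (ρ q.1, Zf q) := by
    intro q hq
    have a1 : μ q.1 ≠ 0 := left_ne_zero_of_mul hq
    have a2 : μ q.2 ≠ 0 := right_ne_zero_of_mul hq
    have a3 : 0 < oh (q.1, Zf q) := hat_pos hω0 (((hμ20 q).lt_of_ne' hq).trans_le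
      (le_push (fun q : T × T => (q.1, Zf q)) hμ20 q))
    have a4 : 0 < oh (q.2, Zf q) := by
      refine hat_pos hω0 (((hμ20 q).lt_of_ne' hq).trans_le ?_)
      have := le_push (fun q : T × T => (q.1, Zf q)) hμ20 q.swap
      simp only [hμ2, hZf, Prod.fst_swap, Prod.snd_swap] at this ⊢
      rwa [mul_comm, inter_comm] at this
    exact ⟨by rw [(hs _ a1).1, (hs _ a2).1], (hμ _).lt_of_ne' a1, (hμ _).lt_of_ne' a2, a3, a4,
      a3.trans_le (le_push φ hoh0 (q.1, Zf q))⟩
  set M := push Zf μ2 with hM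
  set c' : X → ℝ := fun x => 3 / 2 * √(u x) with hc'
  have hI : (A.card * L - log 2) + L * s + (L - κ) * (2 * a - 2 * s)
      + ∑ x, (3 / 2 * c' x * (2 * u x - 2 * u x ^ 2) - c' x ^ 3 / 2) ≤
      2 * (info Γ μ + mark) + ∑ p, w p * log (N (φ p)) - ∑ q, μ2 q * log (M (Zf q)) := by
    have key : ∀ Z, M Z * ((A.card * L - log 2) + L * Z.card)
        + (L - κ) * ∑ q, (if Zf q = Z then μ2 q else 0) * ((U q.1) ∆ (U q.2)).card
        + ∑ x, (3 / 2 * c' x * (∑ q, if x ∈ (U q.1) ∆ (U q.2) then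
          (if Zf q = Z then μ2 q else 0) else 0) - c' x ^ 3 * M Z / 2) ≤
        ∑ q, (if Zf q = Z then μ2 q else 0) * (log (μ2 q) - log (R q) - log (M (Zf q))) := by
      intro Z
      by_cases hZ : M Z = 0
      · have : ∀ q, (if Zf q = Z then μ2 q else 0) = 0 := fun q => by
          split_ifs with h
          · exact le_antisymm (hZ ▸ h ▸ le_push Zf hμ20 q) (hμ20 q)
          · rfl
        simp [this, hZ]
      obtain ⟨q0, hq0, hq0'⟩ := exists_of_push_ne_zero hZ
      have hZH : Z ⊆ H \ A := hq0 ▸ inter_subset_left.trans (hs _ (left_ne_zero_of_mul hq0')).2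
      have hm0 : ∀ q, 0 ≤ (if Zf q = Z then μ2 q else 0) := fun q => by
        split_ifs; exacts [hμ20 q, le_rfl]
      have hm1 : ∀ q, (if Zf q = Z then μ2 q else 0) ≠ 0 → Zf q = Z ∧ μ2 q ≠ 0 := fun q h => by
        split_ifs at h with h'
        exacts [⟨h', h⟩, absurd rfl h]
      have b1 := hE (T × T) (fun q => ρ q.1 ∪ Zf q) (fun q => (U q.1) ∆ (U q.2))
        (fun σ q => by rw [hZe, Prod.smul_fst, hρ, smul_finset_union])
        (fun σ q => by rw [Prod.smul_fst, Prod.smul_snd, hU, hU, smul_finset_symmDiff])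
        (A ∪ Z) (union_subset hA (hZH.trans sdiff_subset))
        (fun q => if Zf q = Z then μ2 q else 0) hm0 (fun q hq => by
          obtain ⟨c1, c2⟩ := hm1 q hq
          have c3 := hs _ (left_ne_zero_of_mul c2)
          have c4 := hs _ (right_ne_zero_of_mul c2)
          refine ⟨by rw [c1, c3.1], fun x hx => ?_⟩
          rw [← c1]
          have d1 := @c3.2 x
          have d2 := @c4.2 x
          simp only [hZf, mem_symmDiff, mem_sdiff, mem_union, mem_inter] at hx d1 d2 ⊢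
          tauto) c' (fun x => by positivity)
      have hMZ : 0 < M Z := (push_nonneg Zf hμ20 Z).lt_of_ne' hZ
      have hRpos : ∀ q, μ2 q ≠ 0 → 0 < R q := fun q hq => by
        obtain ⟨c1, -, -, c2, c3, c4⟩ := hpos q hq
        simp only [hR, if_pos c1]; positivity
      have b2 := info_le (Γ := Γ) (m := fun q => if Zf q = Z then μ2 q else 0)
        (Q := fun q => R q * M Z) hm0 (fun q => mul_nonneg (hR0 q) hMZ.le)
        (fun σ q => by rw [hRi]) (fun q hq => mul_pos (hRpos q (hm1 q hq.ne').2) hMZ)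
        (by rw [← sum_mul]; exact mul_le_of_le_one_left hMZ.le hR1)
      have hcard : ((A ∪ Z).card : ℝ) = A.card + Z.card := by
        rw [card_union_of_disjoint (disjoint_of_subset_right hZH disjoint_sdiff)]; push_cast; rfl
      refine le_trans (le_of_eq ?_) (b1.trans (b2.trans (le_of_eq ?_)))
      · rw [hcard]
        change _ = M Z * _ + _ + ∑ x, (_ - c' x ^ 3 * M Z / 2)
        ring
      · refine sum_congr rfl fun q _ => ?_
        split_ifs with h
        · by_cases h' : μ2 q = 0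
          · simp [h']
          · rw [Real.log_mul (hRpos q h').ne' hMZ.ne', h]; ring
        · simp
    have k2 := sum_le_sum (s := univ) fun Z _ => key Z
    have e0 : ∀ f : T × T → ℝ, ∑ Z, ∑ q, (if Zf q = Z then μ2 q else 0) * f q =
        ∑ q, μ2 q * f q := fun f => by
      rw [sum_comm]; exact sum_congr rfl fun q _ => by simp
    have e1 : ∑ Z, M Z = 1 := by simpa [h12] using sum_push_mul Zf μ2 (fun _ => 1)
    have e2 : ∑ Z, M Z * ((A.card * L - log 2) + L * Z.card) = (A.card * L - log 2) + L * s := by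
      simp_rw [mul_add, mul_left_comm _ L]
      rw [sum_add_distrib, ← sum_mul, e1, ← mul_sum, hM,
        sum_push_mul Zf μ2 (fun Z => (Z.card : ℝ)), hs1, one_mul]
    have hDx : ∀ x, (∑ q, if x ∈ (U q.1) ∆ (U q.2) then μ2 q else 0) = 2 * u x - 2 * u x ^ 2 := by
      intro x
      have d1 : ∑ q, μ2 q * (if x ∈ U q.1 then 1 else 0) = u x := by
        rw [sfst (fun t => if x ∈ U t then 1 else 0)]; simp [hu]
      have d2 : ∑ q, μ2 q * (if x ∈ U q.2 then 1 else 0) = u x := by
        rw [← d1, ← sω (fun p => if x ∈ U p.1 then 1 else 0),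
          sω' (fun p => if x ∈ U p.1 then 1 else 0)]
      rw [← hZx x]
      nth_rewrite 1 [two_mul]
      nth_rewrite 1 [← d1]
      rw [← d2, mul_sum, ← sum_add_distrib, ← sum_sub_distrib]
      refine sum_congr rfl fun q _ => ?_
      by_cases h : x ∈ U q.1 <;> by_cases h' : x ∈ U q.2 <;> simp [hZf, mem_symmDiff, h, h']
      ring
    have e3 : ∑ q, μ2 q * (((U q.1) ∆ (U q.2)).card : ℝ) = 2 * a - 2 * s := by
      rw [sum_mul_card μ2 (fun q => (U q.1) ∆ (U q.2))]
      simp_rw [hDx]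
      rw [sum_sub_distrib, ← mul_sum, ← mul_sum, ha]
    have e4 : ∑ Z, ∑ x, (3 / 2 * c' x * (∑ q, if x ∈ (U q.1) ∆ (U q.2) then
          (if Zf q = Z then μ2 q else 0) else 0) - c' x ^ 3 * M Z / 2) =
        ∑ x, (3 / 2 * c' x * (2 * u x - 2 * u x ^ 2) - c' x ^ 3 / 2) := by
      rw [sum_comm]
      refine sum_congr rfl fun x _ => ?_
      rw [sum_sub_distrib, ← mul_sum, ← sum_div, ← mul_sum, e1, mul_one, ← hDx, sum_comm]
      congr 2
      refine sum_congr rfl fun q _ => ?_
      split_ifs <;> simp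
    have e5 : ∑ q, μ2 q * (log (μ2 q) - log (R q) - log (M (Zf q))) =
        2 * (info Γ μ + mark) + ∑ p, w p * log (N (φ p)) - ∑ q, μ2 q * log (M (Zf q)) := by
      have f1 : ∑ p, ω p * (log (μ p.1) - log (oh p)) = info Γ μ + mark := by
        rw [hmark, ← swω (fun p => log (mh p.1) - log (oh p))
          (fun σ p => by rw [hohi, Prod.smul_fst, hmhi]), info,
          ← sfst (fun t => log (μ t) - log (hat Γ μ t)),
          ← sω (fun p => log (μ p.1) - log (hat Γ μ p.1)), ← sum_add_distrib]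
        exact sum_congr rfl fun p _ => by rw [← hmh]; ring
      have f2 := f1
      rw [sω] at f1
      rw [sω'] at f2
      rw [← swω (fun p => log (N (φ p))) (fun σ p => by rw [hφe, hNi]), sω, two_mul]
      nth_rewrite 1 [← f1]
      rw [← f2, ← sum_add_distrib, ← sum_add_distrib, ← sum_sub_distrib]
      refine sum_congr rfl fun q _ => ?_
      by_cases h : μ2 q = 0
      · simp [h]
      · obtain ⟨c1, c5, c6, c2, c3, c4⟩ := hpos q h
        have g1 : log (R q) = log (oh (q.1, Zf q)) + log (oh (q.2, Zf q))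
            - log (N (ρ q.1, Zf q)) := by
          simp only [hR, if_pos c1]
          rw [Real.log_div (mul_pos c2 c3).ne' c4.ne', Real.log_mul c2.ne' c3.ne']
        have g2 : log (μ2 q) = log (μ q.1) + log (μ q.2) := Real.log_mul c5.ne' c6.ne'
        rw [g1, g2]
        simp only [hφ]
        ring
    rw [sum_add_distrib, sum_add_distrib, ← mul_sum, e0, e0, e2, e3, e4, e5] at k2
    exact k2
  have hZ := entropy_le μ2 hμ20 h12 Zf
  simp_rw [hZx] at hZ
  have hfin : ∑ x, (-(u x ^ 2 * log (u x ^ 2)) + u x ^ 2) + 5 / 2 * ∑ x, psi (u x) 1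
      - ∑ x, (3 / 2 * c' x * (2 * u x - 2 * u x ^ 2) - c' x ^ 3 / 2) ≤ 27 / 2 * s := by
    rw [hsdef, mul_sum, mul_sum, ← sum_add_distrib, ← sum_sub_distrib]
    refine sum_le_sum fun x _ => ?_
    have := final_scalar (Real.sqrt_nonneg (u x)) (Real.sqrt_le_one.2 (hu1 x))
    have hv : u x = √(u x) ^ 2 := (Real.sq_sqrt (hu0 x)).symm
    simp only [hc', psi, div_one]
    generalize √(u x) = v at *
    rw [hv, show (v ^ 2) ^ 2 = v ^ 4 by ring]
    linarith
  change (κ - 15) * s ≤ 5 / 2 * (info Γ μ - ((A.card * L - log 2) + (L - κ) * a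
    + ∑ x, psi (u x) 1))
  rw [← hM] at hZ
  linarith

end Crest.Agent.R55
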