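import Mathlib

/-! Scalar inequalities and the "loss lemma": an entropy bound for a random subset `W` of a random
set `U t`, in terms of the conditional marginals of `U t` given `W`. -/

set_option autoImplicit false

namespace Crest.Agent.R55

open Finset Real

/-- The perspective of `ζ ↦ ζ ^ (3/2)`. -/
noncomputable def psi (y n : ℝ) : ℝ := y * √(y / n)

lemma psi_eq {y n : ℝ} (hy : 0 ≤ y) (hn : y ≤ n) :
    psi y n = 3 / 2 * √(y / n) * y - √(y / n) ^ 3 * n / 2 := by
  rcases (hy.trans hn).eq_or_lt with h | h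
  · have : y = 0 := le_antisymm (h ▸ hn) hy
    simp [psi, this]
  · have h1 : √(y / n) ^ 2 = y / n := Real.sq_sqrt (by positivity)
    have h2 : √(y / n) ^ 2 * n = y := by rw [h1]; field_simp
    unfold psi
    calc y * √(y / n) = 3 / 2 * √(y / n) * y - √(y / n) * y / 2 := by ring
      _ = 3 / 2 * √(y / n) * y - √(y / n) * (√(y / n) ^ 2 * n) / 2 := by rw [h2]
      _ = _ := by ring

lemma le_psi {y n c : ℝ} (hy : 0 ≤ y) (hn : y ≤ n) (hc : 0 ≤ c) :
    3 / 2 * c * y - c ^ 3 * n / 2 ≤ psi y n := by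
  rcases (hy.trans hn).eq_or_lt with h | h
  · have : y = 0 := le_antisymm (h ▸ hn) hy
    simp [psi, this, ← h]
  · have h1 : √(y / n) ^ 2 = y / n := Real.sq_sqrt (by positivity)
    have h2 : y = √(y / n) ^ 2 * n := by rw [h1]; field_simp
    unfold psi
    have h3 : 0 ≤ √(y / n) := Real.sqrt_nonneg _
    generalize √(y / n) = r at *
    subst h2
    have : 0 ≤ n * ((c - r) ^ 2 * (c + 2 * r)) := by positivity
    nlinarith

lemma mul_log_le {p q : ℝ} (hp : 0 ≤ p) (hq : 0 ≤ q) (h : 0 < p → 0 < q) :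
    p * (log q - log p) ≤ q - p := by
  rcases hp.eq_or_lt with h0 | h0
  · simp [← h0, hq]
  · have := Real.log_le_sub_one_of_pos (div_pos (h h0) h0)
    rw [Real.log_div (h h0).ne' h0.ne'] at this
    calc p * (log q - log p) ≤ p * (q / p - 1) := by gcongr
      _ = q - p := by field_simp

lemma gibbs {α : Type*} [Fintype α] {p q : α → ℝ} (hp : ∀ a, 0 ≤ p a) (hq : ∀ a, 0 ≤ q a)
    (h : ∀ a, 0 < p a → 0 < q a) : ∑ a, p a * (log (q a) - log (p a)) ≤ ∑ a, q a - ∑ a, p a := by
  rw [← sum_sub_distrib]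
  exact sum_le_sum fun a _ => mul_log_le (hp a) (hq a) (h a)

lemma scalar1 {a b θ : ℝ} (ha : 0 ≤ a) (hb : 0 ≤ b) (hθ : 0 ≤ θ) (h : 0 < b → 0 < θ) :
    (a + b) * log (a + b) - a * log a - b * log b ≤ -(b * log θ) + θ * (a + b) := by
  have h1 := mul_log_le ha (add_nonneg ha hb) (fun h => by linarith)
  rcases hb.eq_or_lt with h0 | h0
  · subst h0; simp; positivity
  · have h2 := mul_log_le hb (q := θ * (a + b)) (by positivity)
      (fun _ => mul_pos (h h0) (by linarith))
    rw [Real.log_mul (h h0).ne' (by linarith)] at h2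
    nlinarith

lemma scalar2 {a b : ℝ} (ha : 0 ≤ a) (hb : 0 ≤ b) :
    a * log a + b * log b - (a + b) * log (a + b) ≤ b * (log b - log (a + b)) := by
  rcases ha.eq_or_lt with h0 | h0
  · subst h0; simp
  · have := Real.log_le_log h0 (show a ≤ a + b by linarith)
    nlinarith

lemma log_le_half {y : ℝ} (hy : 0 < y) : log y ≤ y / 2 := by
  have h1 := Real.log_le_sub_one_of_pos (show 0 < y / 2 by positivity)
  rw [Real.log_div hy.ne' two_ne_zero] at h1
  have := Real.log_two_lt_d9
  linarith

lemma scalar3 {β Y n : ℝ} (hβ : 0 ≤ β) (hY : β ≤ Y) (hn : Y ≤ n) :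
    3 / 2 * (-(β * log (β / Y)) + β / Y * Y) + 1 / 2 * (β * (log β - log n))
      ≤ 1 / 2 * psi Y n + 3 / 2 * β := by
  rcases hβ.eq_or_lt with h0 | h0
  · subst h0
    have : 0 ≤ psi Y n := mul_nonneg hY (Real.sqrt_nonneg _)
    simp; positivity
  · have hY0 : 0 < Y := by linarith
    have hn0 : 0 < n := by linarith
    have h1 := log_le_half (y := psi Y n / β) (by unfold psi; positivity)
    have h2 : log (psi Y n / β) = log Y + (log Y - log n) / 2 - log β := by
      unfold psi
      rw [Real.log_div (by positivity) h0.ne', Real.log_mul hY0.ne' (by positivity),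
        Real.log_sqrt (by positivity), Real.log_div hY0.ne' hn0.ne']
    rw [h2] at h1
    have h3 := mul_le_mul_of_nonneg_left h1 hβ
    have h4 : β * (psi Y n / β / 2) = psi Y n / 2 := by field_simp
    rw [Real.log_div h0.ne' hY0.ne', div_mul_cancel₀ _ hY0.ne']
    nlinarith

lemma sum_key {Ω K : Type*} [Fintype Ω] [Fintype K] [DecidableEq K] (key : Ω → K) (F : Ω → ℝ)
    (g : K → ℝ) : ∑ W, F W * g (key W) = ∑ V, (∑ W, if key W = V then F W else 0) * g V := by
  simp_rw [sum_mul]
  rw [sum_comm]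
  refine sum_congr rfl fun W _ => ?_
  simp

/-- One step of the chain rule. -/
lemma loss_step {T Ω K : Type*} [Fintype T] [Fintype Ω] [Fintype K] [DecidableEq K]
    (key : Ω → K) (b : Ω → Prop) [DecidablePred b] (i : T → Prop) [DecidablePred i]
    (w : T → Ω → ℝ) (hw : ∀ t W, 0 ≤ w t W) (hb : ∀ t W, w t W ≠ 0 → b W → i t) :
    (∑ t, ∑ W, w t W * (-(3 / 2) * log (∑ W', if key W' = key W ∧ (b W' ↔ b W) then w t W' else 0)
        + 1 / 2 * log (∑ t', ∑ W', if key W' = key W ∧ (b W' ↔ b W) then w t' W' else 0)))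
      ≤ (∑ t, ∑ W, w t W * (-(3 / 2) * log (∑ W', if key W' = key W then w t W' else 0)
        + 1 / 2 * log (∑ t', ∑ W', if key W' = key W then w t' W' else 0)))
        + (1 / 2 * ∑ W, psi (∑ t, if i t then w t W else 0) (∑ t, w t W)
          + 3 / 2 * ∑ t, ∑ W, if b W then w t W else 0) := by
  set P1 : T → K → ℝ := fun t V => ∑ W, if key W = V then (if b W then w t W else 0) else 0
    with hP1
  set P2 : T → K → ℝ := fun t V => ∑ W, if key W = V then (if b W then 0 else w t W) else 0
    with hP2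
  have h1 : ∀ t V, 0 ≤ P1 t V := fun t V => sum_nonneg fun W _ => by
    split_ifs <;> simp [hw]
  have h2 : ∀ t V, 0 ≤ P2 t V := fun t V => sum_nonneg fun W _ => by
    split_ifs <;> simp [hw]
  have h0 : ∀ t V, (∑ W', if key W' = V then w t W' else 0) = P2 t V + P1 t V := by
    intro t V
    rw [hP1, hP2, ← sum_add_distrib]
    refine sum_congr rfl fun W _ => ?_
    split_ifs <;> simp
  have hA : ∀ t W, (∑ W', if key W' = key W ∧ (b W' ↔ b W) then w t W' else 0) =
      if b W then P1 t (key W) else P2 t (key W) := by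
    intro t W
    split_ifs with h
    · refine sum_congr rfl fun W' _ => ?_
      by_cases h1 : key W' = key W <;> by_cases h2 : b W' <;> simp [h, h1, h2]
    · refine sum_congr rfl fun W' _ => ?_
      by_cases h1 : key W' = key W <;> by_cases h2 : b W' <;> simp [h, h1, h2]
  set β : K → ℝ := fun V => ∑ t, P1 t V with hβ
  set α : K → ℝ := fun V => ∑ t, P2 t V with hα
  set Y : K → ℝ := fun V => ∑ t, if i t then P2 t V + P1 t V else 0 with hY
  have hβ0 : ∀ V, 0 ≤ β V := fun V => sum_nonneg fun t _ => h1 t V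
  have hα0 : ∀ V, 0 ≤ α V := fun V => sum_nonneg fun t _ => h2 t V
  have hP10 : ∀ t V, ¬ i t → P1 t V = 0 := fun t V hi => sum_eq_zero fun W _ => by
    split_ifs with h3 h4
    · by_contra h5; exact hi (hb t W h5 h4)
    · rfl
    · rfl
  have hβY : ∀ V, β V ≤ Y V := fun V => sum_le_sum fun t _ => by
    split_ifs with hi
    · linarith [h2 t V]
    · exact (hP10 t V hi).le
  have hYn : ∀ V, Y V ≤ α V + β V := fun V => by
    rw [hα, hβ, ← sum_add_distrib]
    refine sum_le_sum fun t _ => ?_
    split_ifs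
    · exact le_rfl
    · exact add_nonneg (h2 t V) (h1 t V)
  have eL : (∑ t, ∑ W, w t W * (-(3 / 2) *
        log (∑ W', if key W' = key W ∧ (b W' ↔ b W) then w t W' else 0)
        + 1 / 2 * log (∑ t', ∑ W', if key W' = key W ∧ (b W' ↔ b W) then w t' W' else 0))) =
      ∑ V, (-(3 / 2) * ∑ t, (P2 t V * log (P2 t V) + P1 t V * log (P1 t V))
        + 1 / 2 * (α V * log (α V) + β V * log (β V))) := by
    simp_rw [hA]
    have : ∀ t, (∑ W, w t W * (-(3 / 2) * log (if b W then P1 t (key W) else P2 t (key W))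
        + 1 / 2 * log (∑ t', if b W then P1 t' (key W) else P2 t' (key W)))) =
        ∑ V, (P1 t V * (-(3 / 2) * log (P1 t V) + 1 / 2 * log (β V))
          + P2 t V * (-(3 / 2) * log (P2 t V) + 1 / 2 * log (α V))) := by
      intro t
      rw [sum_add_distrib, hP1, hP2]
      simp only
      rw [← sum_key key (fun W => if b W then w t W else 0)
          (fun V => -(3 / 2) * log (P1 t V) + 1 / 2 * log (β V)),
        ← sum_key key (fun W => if b W then 0 else w t W)
          (fun V => -(3 / 2) * log (P2 t V) + 1 / 2 * log (α V)), ← sum_add_distrib]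
      refine sum_congr rfl fun W _ => ?_
      by_cases h : b W <;> simp [h, hβ, hα, hP1, hP2]
    simp_rw [this]
    rw [sum_comm]
    refine sum_congr rfl fun V _ => ?_
    rw [hα, hβ]
    simp only [mul_sum, sum_mul, mul_add, ← sum_add_distrib]
    refine sum_congr rfl fun t _ => by ring
  have eR : (∑ t, ∑ W, w t W * (-(3 / 2) * log (∑ W', if key W' = key W then w t W' else 0)
        + 1 / 2 * log (∑ t', ∑ W', if key W' = key W then w t' W' else 0))) =
      ∑ V, (-(3 / 2) * ∑ t, ((P2 t V + P1 t V) * log (P2 t V + P1 t V))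
        + 1 / 2 * ((α V + β V) * log (α V + β V))) := by
    have hn : ∀ V, ∑ t, (P2 t V + P1 t V) = α V + β V := fun V => sum_add_distrib
    simp_rw [h0, hn]
    have : ∀ t, (∑ W, w t W * (-(3 / 2) * log (P2 t (key W) + P1 t (key W))
        + 1 / 2 * log (α (key W) + β (key W)))) =
        ∑ V, (P2 t V + P1 t V) * (-(3 / 2) * log (P2 t V + P1 t V) + 1 / 2 * log (α V + β V)) := by
      intro t
      rw [sum_key key (w t) (fun V => -(3 / 2) * log (P2 t V + P1 t V) + 1 / 2 * log (α V + β V))]
      simp_rw [h0]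
    simp_rw [this]
    rw [sum_comm]
    refine sum_congr rfl fun V _ => ?_
    rw [← hn V]
    simp only [mul_sum, sum_mul, ← sum_add_distrib]
    refine sum_congr rfl fun t _ => by ring
  have eb : (∑ t, ∑ W, if b W then w t W else 0) = ∑ V, β V := by
    rw [hβ]
    simp only
    rw [sum_comm (s := univ) (t := univ) (f := fun V t => P1 t V)]
    refine sum_congr rfl fun t _ => ?_
    have := sum_key key (fun W => if b W then w t W else 0) (fun _ => 1)
    simpa using this
  have eψ : ∑ V, psi (Y V) (α V + β V) ≤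
      ∑ W, psi (∑ t, if i t then w t W else 0) (∑ t, w t W) := by
    have hc : ∀ V, psi (Y V) (α V + β V) = Y V * (3 / 2 * √(Y V / (α V + β V)))
        - (α V + β V) * (√(Y V / (α V + β V)) ^ 3 / 2) := fun V => by
      rw [psi_eq ((hβ0 V).trans (hβY V)) (hYn V)]; ring
    simp_rw [hc]
    have e1 : ∀ V, Y V = ∑ W, if key W = V then (∑ t, if i t then w t W else 0) else 0 := by
      intro V
      rw [hY]
      simp only [← h0]
      have : ∀ W, (if key W = V then (∑ t, if i t then w t W else 0) else 0) =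
          ∑ t, if i t then (if key W = V then w t W else 0) else 0 := by
        intro W; split_ifs <;> simp
      simp_rw [this]
      rw [sum_comm]
      refine sum_congr rfl fun t _ => ?_
      split_ifs <;> simp
    have e2 : ∀ V, α V + β V = ∑ W, if key W = V then (∑ t, w t W) else 0 := by
      intro V
      rw [hα, hβ, ← sum_add_distrib]
      simp only [← h0]
      rw [sum_comm]
      refine sum_congr rfl fun W _ => ?_
      split_ifs <;> simp
    rw [sum_sub_distrib]
    set c : K → ℝ := fun V => √(Y V / (α V + β V)) with hcdef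
    have e3 : ∑ V, Y V * (3 / 2 * c V) =
        ∑ W, (∑ t, if i t then w t W else 0) * (3 / 2 * c (key W)) := by
      rw [sum_key key _ (fun V => 3 / 2 * c V)]
      exact sum_congr rfl fun V _ => by rw [e1 V]
    have e4 : ∑ V, (α V + β V) * (c V ^ 3 / 2) = ∑ W, (∑ t, w t W) * (c (key W) ^ 3 / 2) := by
      rw [sum_key key _ (fun V => c V ^ 3 / 2)]
      exact sum_congr rfl fun V _ => by rw [e2 V]
    rw [e3, e4, ← sum_sub_distrib]
    refine sum_le_sum fun W _ => le_trans (le_of_eq (by ring))
      (le_psi (c := c (key W)) (sum_nonneg fun t _ => by split_ifs <;> simp [hw])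
        (sum_le_sum fun t _ => by split_ifs <;> simp [hw]) (Real.sqrt_nonneg _))
  rw [eL, eR, eb]
  have main : ∀ V, (-(3 / 2) * ∑ t, (P2 t V * log (P2 t V) + P1 t V * log (P1 t V))
        + 1 / 2 * (α V * log (α V) + β V * log (β V))) ≤
      (-(3 / 2) * ∑ t, ((P2 t V + P1 t V) * log (P2 t V + P1 t V))
        + 1 / 2 * ((α V + β V) * log (α V + β V)))
        + (1 / 2 * psi (Y V) (α V + β V) + 3 / 2 * β V) := by
    intro V
    have s1 : ∑ t, ((P2 t V + P1 t V) * log (P2 t V + P1 t V))
        - ∑ t, (P2 t V * log (P2 t V) + P1 t V * log (P1 t V))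
        ≤ -(β V * log (β V / Y V)) + β V / Y V * Y V := by
      have hθ : 0 ≤ β V / Y V := div_nonneg (hβ0 V) ((hβ0 V).trans (hβY V))
      have hθ' : ∀ t, 0 < P1 t V → 0 < β V / Y V := fun t ht => by
        have : 0 < β V := ht.trans_le (single_le_sum (f := fun t => P1 t V)
          (fun t _ => h1 t V) (mem_univ t))
        exact div_pos this (this.trans_le (hβY V))
      generalize β V / Y V = θ at *
      rw [hβ, hY]
      simp only
      rw [← sum_sub_distrib, sum_mul, mul_sum, ← sum_neg_distrib, ← sum_add_distrib]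
      refine sum_le_sum fun t _ => ?_
      split_ifs with hi
      · have := scalar1 (h2 t V) (h1 t V) hθ (hθ' t)
        linarith
      · simp [hP10 t V hi]
    have s2 := scalar2 (hα0 V) (hβ0 V)
    have s3 := scalar3 (hβ0 V) (hβY V) (hYn V)
    linarith
  refine (sum_le_sum fun V _ => main V).trans ?_
  rw [sum_add_distrib, sum_add_distrib (f := fun V => 1 / 2 * psi (Y V) (α V + β V)),
    ← mul_sum, ← mul_sum]
  linarith

/-- The loss lemma. -/
lemma loss_lemma {T X : Type*} [Fintype T] [Fintype X] [DecidableEq X] (U : T → Finset X)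
    (w : T → Finset X → ℝ) (hw : ∀ t W, 0 ≤ w t W) (hU : ∀ t W, w t W ≠ 0 → W ⊆ U t)
    (h1 : ∑ t, ∑ W, w t W = 1) :
    (∑ t, ∑ W, w t W * (-(3 / 2) * (log (w t W) - log (∑ W', w t W'))
        + 1 / 2 * log (∑ t', w t' W)))
      ≤ 1 / 2 * ∑ x, ∑ W, psi (∑ t, if x ∈ U t then w t W else 0) (∑ t, w t W)
        + 3 / 2 * ∑ t, ∑ W, w t W * W.card := by
  have key : ∀ S : Finset X,
      (∑ t, ∑ W, w t W * (-(3 / 2) * log (∑ W', if W' ∩ S = W ∩ S then w t W' else 0)
        + 1 / 2 * log (∑ t', ∑ W', if W' ∩ S = W ∩ S then w t' W' else 0)))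
      ≤ (∑ t, ∑ W, w t W * (-(3 / 2) * log (∑ W', w t W')))
        + ∑ x ∈ S, (1 / 2 * ∑ W, psi (∑ t, if x ∈ U t then w t W else 0) (∑ t, w t W)
          + 3 / 2 * ∑ t, ∑ W, if x ∈ W then w t W else 0) := by
    intro S
    induction S using Finset.induction_on with
    | empty => simp [h1]
    | insert x S hx ih =>
      have hiff : ∀ W' W : Finset X, (W' ∩ insert x S = W ∩ insert x S) ↔
          (W' ∩ S = W ∩ S ∧ (x ∈ W' ↔ x ∈ W)) := by
        intro W' W
        simp only [Finset.ext_iff, mem_inter, mem_insert]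
        constructor
        · intro h
          refine ⟨fun a => ?_, ?_⟩
          · have := h a; tauto
          · have := h x; tauto
        · rintro ⟨h, h'⟩ a
          have := h a
          by_cases ha : a = x
          · subst ha; tauto
          · tauto
      simp_rw [hiff]
      rw [sum_insert hx]
      have := loss_step (fun W : Finset X => W ∩ S) (fun W => x ∈ W) (fun t => x ∈ U t) w hw
        (fun t W h hx => hU t W h hx)
      linarith
  have h := key univ
  simp only [inter_univ, sum_ite_eq', mem_univ, if_true] at h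
  have e1 : ∑ x, (1 / 2 * ∑ W, psi (∑ t, if x ∈ U t then w t W else 0) (∑ t, w t W)
          + 3 / 2 * ∑ t, ∑ W, if x ∈ W then w t W else 0) =
      1 / 2 * ∑ x, ∑ W, psi (∑ t, if x ∈ U t then w t W else 0) (∑ t, w t W)
        + 3 / 2 * ∑ t, ∑ W, w t W * W.card := by
    rw [sum_add_distrib, ← mul_sum, ← mul_sum]
    congr 2
    rw [sum_comm]
    refine sum_congr rfl fun t _ => ?_
    rw [sum_comm]
    refine sum_congr rfl fun W _ => ?_
    simp [mul_comm]
  have e2 : (∑ t, ∑ W, w t W * (-(3 / 2) * (log (w t W) - log (∑ W', w t W'))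
        + 1 / 2 * log (∑ t', w t' W))) =
      (∑ t, ∑ W, w t W * (-(3 / 2) * log (w t W) + 1 / 2 * log (∑ t', w t' W)))
       - ∑ t, ∑ W, w t W * (-(3 / 2) * log (∑ W', w t W')) := by
    rw [← sum_sub_distrib]
    refine sum_congr rfl fun t _ => ?_
    rw [← sum_sub_distrib]
    refine sum_congr rfl fun W _ => by ring
  rw [e1] at h
  rw [e2]
  linarith

end Crest.Agent.R55
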